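import Mathlib

/-! Covering densities of subsets of Euclidean space. -/

namespace Vale.Agent.P230

open MeasureTheory Filter Pointwise

/-- The cube `[-R, R]^n`. -/
def cube (n : ℕ) (R : ℝ) : Set (EuclideanSpace ℝ (Fin n)) := {x | ∀ i, |x i| ≤ R}

/-- Every bounded set contains finitely many points of `X`. -/
def LocFin {n : ℕ} (X : Set (EuclideanSpace ℝ (Fin n))) : Prop :=
  ∀ B : Set (EuclideanSpace ℝ (Fin n)), Bornology.IsBounded B → (X ∩ B).Finite

/-- Upper density of `X`: the limsup of the number of points in `[-R, R]^n` over `(2R)^n`. -/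
noncomputable def upperDensity {n : ℕ} (X : Set (EuclideanSpace ℝ (Fin n))) : ENNReal :=
  limsup (fun R : ℝ => ((X ∩ cube n R).ncard : ENNReal) / ENNReal.ofReal ((2 * R) ^ n)) atTop

/-- Translative covering density. -/
noncomputable def thetaT {n : ℕ} (K : Set (EuclideanSpace ℝ (Fin n))) : ENNReal :=
  ⨅ (X : Set (EuclideanSpace ℝ (Fin n))) (_ : LocFin X) (_ : K + X = Set.univ),
    volume K * upperDensity X

/-- Compact convex set with nonempty interior. -/
def IsConvexBody {n : ℕ} (K : Set (EuclideanSpace ℝ (Fin n))) : Prop :=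
  IsCompact K ∧ Convex ℝ K ∧ (interior K).Nonempty

end Vale.Agent.P230
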