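import Vale.Agent.P230.Counts
import Vale.Agent.P230.Defs

/-! Averaging over translations produces a sparse configuration. -/

namespace Vale.Agent.P230

open Finset Filter MeasureTheory Pointwise

variable {n : ℕ} {ρ D θ G : ℝ}

/-- Integer points of a cube. -/
noncomputable def cubeZ (n N : ℕ) : Finset (Zn n) := Fintype.piFinset fun _ => Icc (-(N : ℤ)) N

lemma mem_cubeZ {N : ℕ} {z : Zn n} : z ∈ cubeZ n N ↔ ∀ i, |z i| ≤ N := by
  simp [cubeZ, abs_le]

lemma card_cubeZ (n N : ℕ) : (cubeZ n N).card = (2 * N + 1) ^ n := by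
  rw [cubeZ, Fintype.card_piFinset]
  simp only [Int.card_Icc, prod_const, card_univ, Fintype.card_fin]
  congr 1
  omega

lemma LB_subset_cubeZ (N : ℕ) : LB (0 : En n) N ⊆ cubeZ n N := by
  intro z hz
  rw [mem_LB_zero] at hz
  rw [mem_cubeZ]
  intro i
  have h1 : ‖(emb z) i‖ ≤ ‖emb z‖ := PiLp.norm_apply_le _ _
  rw [emb_apply, Real.norm_eq_abs] at h1
  exact_mod_cast (h1.trans_lt hz).le

open Classical in
lemma exists_shift (A : Set (Zn n)) {η : ℝ} (hη : 0 ≤ η)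
    (hA : ∀ᶠ N : ℕ in atTop, ∀ P : Finset (Zn n), (∀ z ∈ P, z ∈ A) → P ⊆ cubeZ n N →
      (P.card : ℝ) ≤ η * (2 * (N + 1)) ^ n)
    (B : Finset (Zn n)) (b : ℕ) (hB : B ⊆ cubeZ n b) (g : Zn n → ℝ) (hg : ∀ u, 0 ≤ g u) :
    ∃ z, ∑ u ∈ B.filter (fun u => u + z ∈ A), g u ≤ 2 * η * ∑ u ∈ B, g u := by
  obtain ⟨N₀, hN₀⟩ := eventually_atTop.1 hA
  set M := N₀ + n * (2 * b + 1) with hM
  have h1 := hN₀ (M + b) (by omega)
  have h2 : (2 * (((M + b : ℕ) : ℝ) + 1)) ^ n ≤ 2 * (2 * M + 1) ^ n := by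
    have h3 := add_pow_le_exp (r := 2 * M + 1) (s := 2 * b + 1) (by positivity) (by positivity) n
    have h4 : Real.exp (n * ((2 * b + 1) / (2 * M + 1))) ≤ 2 := by
      refine le_trans (Real.exp_le_exp.2 ?_) exp_half_le_two
      rw [← mul_div_assoc, div_le_iff₀ (by positivity)]
      have : (M : ℝ) = N₀ + n * (2 * b + 1) := by rw [hM]; push_cast; ring
      have h5 : (0 : ℝ) ≤ N₀ := Nat.cast_nonneg _
      linarith
    calc (2 * (((M + b : ℕ) : ℝ) + 1)) ^ n = (2 * M + 1 + (2 * b + 1)) ^ n := by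
          push_cast; ring
      _ ≤ (2 * M + 1) ^ n * 2 := h3.trans (by gcongr)
      _ = _ := by ring
  have hne : (cubeZ n M).Nonempty := ⟨0, mem_cubeZ.2 fun i => by simp⟩
  have h3 : ∑ z ∈ cubeZ n M, ∑ u ∈ B.filter (fun u => u + z ∈ A), g u ≤
      ∑ _z ∈ cubeZ n M, 2 * η * ∑ u ∈ B, g u := by
    simp only [sum_filter]
    rw [sum_comm, sum_const, card_cubeZ, nsmul_eq_mul, ← mul_assoc, mul_sum]
    refine sum_le_sum fun u hu => ?_
    rw [← sum_filter, sum_const, nsmul_eq_mul]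
    refine mul_le_mul_of_nonneg_right ?_ (hg u)
    have h4 := h1 (((cubeZ n M).filter fun z => u + z ∈ A).image fun z => u + z)
      (fun w hw => by
        obtain ⟨z, hz, rfl⟩ := mem_image.1 hw
        exact (mem_filter.1 hz).2)
      (fun w hw => by
        obtain ⟨z, hz, rfl⟩ := mem_image.1 hw
        refine mem_cubeZ.2 fun i => ?_
        have e1 := mem_cubeZ.1 (mem_filter.1 hz).1 i
        have e2 := mem_cubeZ.1 (hB hu) i
        have e3 := abs_add_le (u i) (z i)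
        push_cast
        rw [Pi.add_apply]
        linarith)
    rw [card_image_of_injective _ (add_right_injective u)] at h4
    refine h4.trans ((mul_le_mul_of_nonneg_left h2 hη).trans (le_of_eq ?_))
    push_cast; ring
  obtain ⟨z, _, hz⟩ := exists_le_of_sum_le hne h3
  exact ⟨z, hz⟩

lemma isBounded_cube (n : ℕ) (T : ℝ) : Bornology.IsBounded (cube n T) := by
  refine (Metric.isBounded_closedBall (x := (0 : En n)) (r := √(n * T ^ 2))).subset fun x hx => ?_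
  rw [mem_closedBall_zero_iff]
  refine Real.le_sqrt_of_sq_le ?_
  rw [EuclideanSpace.real_norm_sq_eq]
  calc ∑ i, x i ^ 2 ≤ ∑ _i : Fin n, T ^ 2 := by
        refine sum_le_sum fun i _ => ?_
        rw [← sq_abs]
        exact pow_le_pow_left₀ (abs_nonneg _) (hx i) 2
    _ = _ := by simp

lemma floor_count {X : Set (En n)} (hfin : LocFin X) {η : ℝ}
    (hη : ∀ᶠ T : ℝ in atTop, ((X ∩ cube n T).ncard : ℝ) ≤ η * (2 * T) ^ n) :
    ∀ᶠ N : ℕ in atTop, ∀ P : Finset (Zn n), (∀ z ∈ P, z ∈ fl '' X) → P ⊆ cubeZ n N →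
      (P.card : ℝ) ≤ η * (2 * (N + 1)) ^ n := by
  have h1 : Tendsto (fun N : ℕ => (N : ℝ) + 1) atTop atTop :=
    tendsto_atTop_add_const_right _ _ tendsto_natCast_atTop_atTop
  filter_upwards [h1.eventually hη] with N hN P hP hPN
  refine le_trans ?_ hN
  have h2 := hfin _ (isBounded_cube n ((N : ℝ) + 1))
  have h3 : (P : Set (Zn n)) ⊆ fl '' (X ∩ cube n ((N : ℝ) + 1)) := by
    intro z hz
    obtain ⟨x, hx, rfl⟩ := hP z hz
    refine ⟨x, ⟨hx, fun i => ?_⟩, rfl⟩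
    have h4 := abs_le.1 (mem_cubeZ.1 (hPN hz) i)
    have h5 := Int.floor_le (x i)
    have h6 := Int.lt_floor_add_one (x i)
    have h7 : (-(N : ℝ)) ≤ ⌊x i⌋ := by exact_mod_cast h4.1
    have h8 : (⌊x i⌋ : ℝ) ≤ N := by exact_mod_cast h4.2
    rw [abs_le]
    constructor <;> linarith
  have h4 := (Set.ncard_le_ncard h3 (h2.image _)).trans (Set.ncard_image_le h2)
  rw [Set.ncard_coe_finset] at h4
  exact_mod_cast h4

open Classical in
lemma Par.exists_sparse {R J : ℕ} (P : Par n R ρ D θ G J) (hG : 0 < G) (hJ : 0 < J)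
    (A : Set (Zn n)) {η : ℝ} (hη : 0 ≤ η)
    (hA : ∀ᶠ N : ℕ in atTop, ∀ P : Finset (Zn n), (∀ z ∈ P, z ∈ A) → P ⊆ cubeZ n N →
      (P.card : ℝ) ≤ η * (2 * (N + 1)) ^ n)
    (hκ : 2 * (η * (om n * R ^ n)) * (2 * 3 ^ n / J + ((18 + 18 * (R ^ 2 / ρ ^ 2)) / G +
      6 * Real.exp (-(n * (D / (2 * R ^ 2)))))) ≤ 1 / 2) :
    ∃ z, Sparse R ρ D G J ((LB (0 : En n) (3 * R)).filter fun u => u + z ∈ A) := by
  have hR := P.R_pos
  have h1 := om_pos n
  have hJ' : (0 : ℝ) < J := by exact_mod_cast hJ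
  have hT : (0 : ℝ) < (LB (0 : En n) R).card := by
    have : 0 < (LB (0 : En n) R).card :=
      card_pos.2 ⟨0, mem_LB_zero.2 (by rw [emb_zero, norm_zero]; exact hR)⟩
    exact_mod_cast this
  have hB : LB (0 : En n) (3 * R) ⊆ cubeZ n (3 * R) := by
    have := LB_subset_cubeZ (n := n) (3 * R)
    push_cast at this
    exact this
  obtain ⟨z, hz⟩ := exists_shift A hη hA _ _ hB
    (fun u => 1 / J + (∑ y ∈ LB (0 : En n) R, psi R ρ D G (y - u)) / (LB (0 : En n) R).card)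
    (fun u => add_nonneg (by positivity)
      (div_nonneg (sum_nonneg fun y _ => P.psi_nonneg hG _) hT.le))
  have h2 : ∑ u ∈ LB (0 : En n) (3 * R),
      (1 / J + (∑ y ∈ LB (0 : En n) R, psi R ρ D G (y - u)) / (LB (0 : En n) R).card) ≤
      om n * R ^ n * (2 * 3 ^ n / J + ((18 + 18 * (R ^ 2 / ρ ^ 2)) / G +
      6 * Real.exp (-(n * (D / (2 * R ^ 2)))))) := by
    rw [sum_add_distrib, mul_add]
    refine add_le_add ?_ (le_trans ?_ (P.sum_psi hG))
    · have h3 := card_LB_le (0 : En n) (r := 3 * R) (by positivity) (by nlinarith [P.R_big])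
      rw [sum_const, nsmul_eq_mul]
      refine (mul_le_mul_of_nonneg_right h3 (by positivity)).trans (le_of_eq ?_)
      rw [mul_pow]; ring
    · rw [← sum_div, sum_comm, div_le_iff₀' hT]
      refine (sum_le_card_nsmul _ _ (∑ v ∈ K0 n R, psi R ρ D G v) fun y _ => ?_).trans
        (nsmul_eq_mul _ _).le
      rw [← sum_image (s := LB (0 : En n) (3 * R)) (g := fun u => y - u) (f := psi R ρ D G)
        fun a _ b _ h => sub_right_injective h]
      rw [← sum_filter_of_ne (p := fun v => v ∈ K0 n R) fun v _ hv => by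
        by_contra h
        exact hv (by rw [psi, if_neg h])]
      exact sum_le_sum_of_subset_of_nonneg (fun v hv => (mem_filter.1 hv).2)
        fun v _ _ => P.psi_nonneg hG _
  have h3 := hz.trans (mul_le_mul_of_nonneg_left h2 (by positivity))
  rw [← mul_assoc, mul_assoc 2] at h3
  have h4 := h3.trans hκ
  rw [sum_add_distrib, sum_const, nsmul_eq_mul, ← sum_div, sum_comm] at h4
  have h5 : 0 ≤ (∑ y ∈ LB (0 : En n) R, ∑ u ∈ (LB (0 : En n) (3 * R)).filter fun u => u + z ∈ A,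
      psi R ρ D G (y - u)) / (LB (0 : En n) R).card :=
    div_nonneg (sum_nonneg fun y _ => sum_nonneg fun u _ => P.psi_nonneg hG _) hT.le
  have h6 : (0 : ℝ) ≤ ((LB (0 : En n) (3 * R)).filter fun u => u + z ∈ A).card * (1 / J) := by
    positivity
  refine ⟨z, filter_subset _ _, ?_, ?_⟩
  · have h7 : ((LB (0 : En n) (3 * R)).filter fun u => u + z ∈ A).card * (1 / J : ℝ) ≤ 1 := by
      linarith
    rwa [mul_one_div, div_le_one hJ'] at h7
  · have h7 : (∑ y ∈ LB (0 : En n) R, ∑ u ∈ (LB (0 : En n) (3 * R)).filter fun u => u + z ∈ A,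
      psi R ρ D G (y - u)) / (LB (0 : En n) R).card ≤ 1 / 2 := by linarith
    rw [div_le_iff₀ hT] at h7
    linarith

theorem Par.no_cover {R J : ℕ} (P : Par n R ρ D θ G J) (hG : 0 < G) (hJ : 0 < J)
    {F : Finset (Zn n)}
    (hF : ∀ Y, Sparse R ρ D G J Y → ∃ y ∈ LB (0 : En n) R, Hit (caps R ρ Y y) F)
    {X : Set (En n)} (hfin : LocFin X) (hcov : body R ρ F + X = Set.univ) {η : ℝ} (hη0 : 0 ≤ η)
    (hη : ∀ᶠ T : ℝ in atTop, ((X ∩ cube n T).ncard : ℝ) ≤ η * (2 * T) ^ n)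
    (hκ : 2 * (η * (om n * R ^ n)) * (2 * 3 ^ n / J + ((18 + 18 * (R ^ 2 / ρ ^ 2)) / G +
      6 * Real.exp (-(n * (D / (2 * R ^ 2)))))) ≤ 1 / 2) : False := by
  classical
  obtain ⟨z, hz⟩ := P.exists_sparse hG hJ (fl '' X) hη0 (floor_count hfin hη) hκ
  obtain ⟨y, hy, hhit⟩ := hF _ hz
  have h1 : emb (y + z) ∈ body R ρ F + X := by rw [hcov]; trivial
  obtain ⟨k, hk, x, hx, hkx⟩ := Set.mem_add.1 h1
  have h2 : ‖k - emb (y - (fl x - z))‖ ≤ n := by
    have : k - emb (y - (fl x - z)) = -(x - emb (fl x)) := by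
      rw [show y - (fl x - z) = (y + z) - fl x by abel, emb_sub, ← hkx]; abel
    rw [this, norm_neg]
    exact norm_sub_fl x
  have hn := P.one_le
  have h3 : ‖emb (y - (fl x - z))‖ ≤ R + n := by
    have h4 := hk.1
    calc ‖emb (y - (fl x - z))‖ = ‖k - (k - emb (y - (fl x - z)))‖ := by congr 1; abel
      _ ≤ ‖k‖ + ‖k - emb (y - (fl x - z))‖ := norm_sub_le _ _
      _ ≤ R + n := by linarith
  have h4 : y - (fl x - z) ∈ K0 n R := mem_LB_zero.2 (by linarith)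
  have h5 : fl x - z ∈ LB (0 : En n) (3 * R) := by
    have h6 := mem_LB_zero.1 hy
    have h7 := P.rho_small
    have h8 := P.rho_pos
    rw [mem_LB_zero]
    calc ‖emb (fl x - z)‖ = ‖emb y - emb (y - (fl x - z))‖ := by
          rw [← emb_sub]; congr 2; abel
      _ ≤ ‖emb y‖ + ‖emb (y - (fl x - z))‖ := norm_sub_le _ _
      _ < 3 * R := by linarith
  obtain ⟨p, hp⟩ := hhit (cap R ρ (y - (fl x - z))) (List.mem_map.2 ⟨fl x - z,
    mem_toList.2 (mem_rel.2 ⟨mem_filter.2 ⟨h5, x, hx, by abel⟩, h4⟩), rfl⟩)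
  exact P.not_mem_body h4 (mem_inter.1 hp).1 (mem_inter.1 hp).2 h2 hk

theorem Par.lower {R J : ℕ} (P : Par n R ρ D θ G J) (hR : 8 * (n : ℝ) ^ 2 ≤ R) (hG : 0 < G)
    (hJ : 0 < J) (M : ℕ) (hM : M * ((J : ℝ) ^ 2 * (16 * (3 * ρ) ^ n)) ≤ R ^ n)
    (hU : (((6 * R + 1) ^ n + 1 : ℕ) : ℝ) ^ J * (3 / 4) ^ M < 1 / 4) {κ : ℝ} (hκ0 : 0 < κ)
    (hκ : 2 * κ * (2 * 3 ^ n / J + ((18 + 18 * (R ^ 2 / ρ ^ 2)) / G +
      6 * Real.exp (-(n * (D / (2 * R ^ 2)))))) ≤ 1 / 2) :
    ∃ K : Set (En n), IsConvexBody K ∧ ENNReal.ofReal (κ / 16) ≤ thetaT K := by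
  obtain ⟨F, hF, hs, hY⟩ := P.exists_F hR hG M hM hU
  refine ⟨body R ρ F, ⟨isCompact_body _ _ _, convex_body _ _ _, P.interior_body F⟩, ?_⟩
  refine le_iInf fun X => le_iInf fun hfin => le_iInf fun hcov => ?_
  have h0 := P.R_pos
  have h1 := om_pos n
  have hv : ENNReal.ofReal (om n * R ^ n / 16) ≤ volume (body R ρ F) := by
    refine le_trans ?_ (P.surv_le_volume hF)
    rw [← ENNReal.ofReal_natCast]
    exact ENNReal.ofReal_le_ofReal hs
  have hd : ENNReal.ofReal (κ / (om n * R ^ n)) ≤ upperDensity X := by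
    by_contra hc
    have h2 := eventually_lt_of_limsup_lt (not_le.1 hc)
    refine P.no_cover hG hJ hY hfin hcov (η := κ / (om n * R ^ n)) (by positivity) ?_ ?_
    · filter_upwards [h2, eventually_gt_atTop 0] with T hT hT0
      rw [ENNReal.div_lt_iff (Or.inl (by simp; positivity)) (Or.inl ENNReal.ofReal_ne_top),
        ← ENNReal.ofReal_mul (by positivity), ← ENNReal.ofReal_natCast,
        ENNReal.ofReal_lt_ofReal_iff (by positivity)] at hT
      exact hT.le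
    · rw [div_mul_cancel₀ _ (by positivity)]
      exact hκ
  refine le_trans (le_of_eq ?_) (mul_le_mul' hv hd)
  rw [← ENNReal.ofReal_mul (by positivity)]
  congr 1
  field_simp

end Vale.Agent.P230
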