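import Mathlib

/-! Counting integer points in Euclidean balls. -/

namespace Vale.Agent.P230

open Finset MeasureTheory

/-- Euclidean space. -/
abbrev En (n : ℕ) := EuclideanSpace ℝ (Fin n)

/-- Integer points. -/
abbrev Zn (n : ℕ) := Fin n → ℤ

variable {n : ℕ}

/-- Integer points as points of Euclidean space. -/
noncomputable def emb (z : Zn n) : En n := WithLp.toLp 2 (fun i => (z i : ℝ))

@[simp] lemma emb_apply (z : Zn n) (i : Fin n) : emb z i = z i := rfl

lemma emb_add (z w : Zn n) : emb (z + w) = emb z + emb w := by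
  ext i; simp

lemma emb_sub (z w : Zn n) : emb (z - w) = emb z - emb w := by
  ext i; simp

lemma emb_zero : emb (0 : Zn n) = 0 := by
  ext i; simp

/-- Coordinatewise floor. -/
noncomputable def fl (x : En n) : Zn n := fun i => ⌊x i⌋

lemma norm_sub_fl (x : En n) : ‖x - emb (fl x)‖ ≤ n := by
  have h1 : ‖x - emb (fl x)‖ ^ 2 ≤ n := by
    rw [EuclideanSpace.real_norm_sq_eq]
    calc ∑ i, ((x - emb (fl x)) i) ^ 2 ≤ ∑ _i : Fin n, (1 : ℝ) := by
          refine sum_le_sum fun i _ => ?_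
          have h1 := Int.floor_le (x i)
          have h2 := Int.lt_floor_add_one (x i)
          have : (x - emb (fl x)) i = x i - ⌊x i⌋ := rfl
          rw [this]
          nlinarith
      _ = n := by simp
  have h2 : (n : ℝ) ≤ (n : ℝ) ^ 2 := by exact_mod_cast Nat.le_self_pow (by norm_num) n
  exact (pow_le_pow_iff_left₀ (norm_nonneg _) (Nat.cast_nonneg _) two_ne_zero).1 (h1.trans h2)

/-- The unit cell of an integer point. -/
def cell (z : Zn n) : Set (En n) := {x | fl x = z}

lemma cell_eq (z : Zn n) : cell z =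
    WithLp.ofLp ⁻¹' (Set.univ.pi fun i => Set.Ico (z i : ℝ) (z i + 1)) := by
  ext x
  simp only [cell, Set.mem_ofPred_eq, Set.mem_preimage, Set.mem_pi, Set.mem_univ, true_imp_iff,
    Set.mem_Ico, funext_iff, fl, Int.floor_eq_iff]

lemma measurableSet_cell (z : Zn n) : MeasurableSet (cell z) := by
  rw [cell_eq]
  exact (PiLp.volume_preserving_ofLp (Fin n)).measurable
    (MeasurableSet.univ_pi fun i => measurableSet_Ico)

lemma volume_cell (z : Zn n) : volume (cell z) = 1 := by
  rw [cell_eq, (PiLp.volume_preserving_ofLp (Fin n)).measure_preimage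
    (MeasurableSet.univ_pi fun i => measurableSet_Ico).nullMeasurableSet, Real.volume_pi_Ico]
  simp

lemma volume_biUnion_cell (P : Finset (Zn n)) : volume (⋃ z ∈ P, cell z) = P.card := by
  rw [measure_biUnion_finset]
  · simp [volume_cell]
  · intro z _ w _ hzw
    exact Set.disjoint_left.2 fun x hx hy => hzw (hx.symm.trans hy)
  · exact fun z _ => measurableSet_cell z

lemma card_le_volume (P : Finset (Zn n)) (A : Set (En n)) (h : ∀ x, fl x ∈ P → x ∈ A) :
    (P.card : ENNReal) ≤ volume A := by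
  rw [← volume_biUnion_cell]
  refine measure_mono fun x hx => ?_
  simp only [Set.mem_iUnion] at hx
  obtain ⟨z, hz, hx⟩ := hx
  exact h x (by rw [show fl x = z from hx]; exact hz)

lemma volume_le_card (P : Finset (Zn n)) (A : Set (En n)) (h : ∀ x ∈ A, fl x ∈ P) :
    volume A ≤ (P.card : ENNReal) := by
  rw [← volume_biUnion_cell]
  refine measure_mono fun x hx => ?_
  simp only [Set.mem_iUnion]
  exact ⟨fl x, h x hx, rfl⟩

lemma finite_ball (c : En n) (r : ℝ) : {z : Zn n | ‖emb z - c‖ < r}.Finite := by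
  refine (Set.Finite.pi' fun i => Set.finite_Icc ⌊c i - r⌋ ⌈c i + r⌉).subset fun z hz i => ?_
  have h1 : ‖(emb z - c) i‖ ≤ ‖emb z - c‖ := PiLp.norm_apply_le _ _
  have h2 : (emb z - c) i = z i - c i := rfl
  rw [h2, Real.norm_eq_abs] at h1
  have h3 := abs_lt.1 (h1.trans_lt hz)
  constructor
  · exact Int.floor_le_iff.2 (by linarith [h3.1])
  · exact Int.le_ceil_iff.2 (by linarith [h3.2])

/-- Integer points of the open ball with centre `c` and radius `r`. -/
noncomputable def LB (c : En n) (r : ℝ) : Finset (Zn n) := (finite_ball c r).toFinset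

lemma mem_LB {c : En n} {r : ℝ} {z : Zn n} : z ∈ LB c r ↔ ‖emb z - c‖ < r := by
  simp [LB]

lemma mem_LB_zero {r : ℝ} {z : Zn n} : z ∈ LB 0 r ↔ ‖emb z‖ < r := by
  simp [mem_LB]

lemma LB_mono (c : En n) {r s : ℝ} (h : r ≤ s) : LB c r ⊆ LB c s :=
  fun _ hz => mem_LB.2 ((mem_LB.1 hz).trans_le h)

/-- Volume of the unit ball. -/
noncomputable def om (n : ℕ) : ℝ := (volume (Metric.ball (0 : En n) 1)).toReal

lemma om_pos (n : ℕ) : 0 < om n :=
  ENNReal.toReal_pos (Metric.measure_ball_pos _ _ one_pos).ne' measure_ball_lt_top.ne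

lemma volume_ball_eq (c : En n) {r : ℝ} (hr : 0 < r) :
    volume (Metric.ball c r) = ENNReal.ofReal (om n * r ^ n) := by
  rw [Measure.addHaar_ball_of_pos _ _ hr, finrank_euclideanSpace_fin, mul_comm (om n),
    ENNReal.ofReal_mul (by positivity), om, ENNReal.ofReal_toReal measure_ball_lt_top.ne]

lemma card_LB_le' (c : En n) {r : ℝ} (hr : 0 < r) :
    ((LB c r).card : ℝ) ≤ om n * (r + n) ^ n := by
  have h1 := card_le_volume (LB c r) (Metric.ball c (r + n)) fun x hx => by
    rw [mem_LB] at hx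
    rw [Metric.mem_ball, dist_eq_norm]
    have h2 := norm_sub_fl x
    calc ‖x - c‖ = ‖(x - emb (fl x)) + (emb (fl x) - c)‖ := by congr 1; abel
      _ ≤ ‖x - emb (fl x)‖ + ‖emb (fl x) - c‖ := norm_add_le _ _
      _ < r + n := by linarith
  have h3 := om_pos n
  rw [volume_ball_eq c (by positivity), ← ENNReal.ofReal_natCast,
    ENNReal.ofReal_le_ofReal_iff (by positivity)] at h1
  exact h1

lemma le_card_LB' (c : En n) {r : ℝ} (hr : n < r) :
    om n * (r - n) ^ n ≤ ((LB c r).card : ℝ) := by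
  have h1 := volume_le_card (LB c r) (Metric.ball c (r - n)) fun x hx => by
    rw [mem_LB]
    rw [Metric.mem_ball, dist_eq_norm] at hx
    have h2 := norm_sub_fl x
    calc ‖emb (fl x) - c‖ = ‖(x - c) - (x - emb (fl x))‖ := by congr 1; abel
      _ ≤ ‖x - c‖ + ‖x - emb (fl x)‖ := norm_sub_le _ _
      _ < r := by linarith
  rw [volume_ball_eq c (by linarith), ← ENNReal.ofReal_natCast,
    ENNReal.ofReal_le_ofReal_iff (by positivity)] at h1
  exact h1

lemma exp_half_le_two : Real.exp (1 / 2) ≤ 2 := by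
  have h1 : Real.exp (1 / 2) ^ 2 = Real.exp 1 := by
    rw [← Real.exp_nat_mul]; norm_num
  have h2 := Real.exp_one_lt_d9
  nlinarith [Real.exp_pos (1 / 2)]

lemma add_pow_le_exp {r s : ℝ} (hr : 0 < r) (hs : 0 ≤ r + s) (n : ℕ) :
    (r + s) ^ n ≤ r ^ n * Real.exp (n * (s / r)) := by
  rw [Real.exp_nat_mul, ← mul_pow]
  refine pow_le_pow_left₀ hs ?_ n
  have h1 := Real.add_one_le_exp (s / r)
  calc r + s = r * (s / r + 1) := by field_simp; ring
    _ ≤ r * Real.exp (s / r) := mul_le_mul_of_nonneg_left h1 hr.le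

lemma card_LB_le (c : En n) {r : ℝ} (hr0 : 0 < r) (hr : 2 * (n : ℝ) ^ 2 ≤ r) :
    ((LB c r).card : ℝ) ≤ 2 * (om n * r ^ n) := by
  refine (card_LB_le' c hr0).trans ?_
  have h1 := add_pow_le_exp hr0 (show 0 ≤ r + n by positivity) n
  have h2 : Real.exp (n * (n / r)) ≤ 2 := by
    refine le_trans (Real.exp_le_exp.2 ?_) exp_half_le_two
    rw [← mul_div_assoc, div_le_iff₀ hr0]
    nlinarith
  have h3 := om_pos n
  calc om n * (r + n) ^ n ≤ om n * (r ^ n * 2) := by
        refine mul_le_mul_of_nonneg_left (h1.trans ?_) h3.le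
        exact mul_le_mul_of_nonneg_left h2 (by positivity)
    _ = _ := by ring

lemma sub_pow_ge_half {r s : ℝ} (hr : 0 < r) (n : ℕ) (hn : 1 ≤ n) (h : 2 * n * s ≤ r) :
    r ^ n / 2 ≤ (r - s) ^ n := by
  have hn' : (1 : ℝ) ≤ n := by exact_mod_cast hn
  have h0 : n * (s / r) ≤ 1 / 2 := by
    rw [← mul_div_assoc, div_le_iff₀ hr]; linarith
  have h1 : (-2 : ℝ) ≤ -(s / r) := by
    by_cases hs : 0 ≤ s / r
    · nlinarith
    · linarith
  have h2 := one_add_mul_le_pow h1 n
  have h3 : (r - s) ^ n = r ^ n * (1 + -(s / r)) ^ n := by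
    rw [← mul_pow]; congr 1; field_simp; ring
  rw [h3]
  have h4 : 0 < r ^ n := by positivity
  nlinarith

lemma le_card_LB (hn : 1 ≤ n) (c : En n) {r : ℝ} (hr : 2 * (n : ℝ) ^ 2 ≤ r) :
    om n * r ^ n / 2 ≤ ((LB c r).card : ℝ) := by
  have hn' : (1 : ℝ) ≤ n := by exact_mod_cast hn
  refine le_trans ?_ (le_card_LB' c (by nlinarith))
  rw [mul_div_assoc]
  exact mul_le_mul_of_nonneg_left (sub_pow_ge_half (by nlinarith) n hn (by nlinarith))
    (om_pos n).le

lemma card_LB_le_cube {R : ℕ} : (LB (0 : En n) R).card ≤ (2 * R + 1) ^ n := by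
  have h1 : LB (0 : En n) R ⊆ Fintype.piFinset fun _ => Finset.Icc (-(R : ℤ)) R := by
    intro z hz
    rw [mem_LB_zero] at hz
    rw [Fintype.mem_piFinset]
    intro i
    have h1 : ‖(emb z) i‖ ≤ ‖emb z‖ := PiLp.norm_apply_le _ _
    rw [emb_apply, Real.norm_eq_abs] at h1
    have h3 := abs_lt.1 (h1.trans_lt hz)
    rw [mem_Icc]
    constructor
    · exact_mod_cast h3.1.le
    · exact_mod_cast h3.2.le
  refine (card_le_card h1).trans (le_of_eq ?_)
  rw [Fintype.card_piFinset]
  simp only [Int.card_Icc, prod_const, card_univ, Fintype.card_fin]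
  congr 1
  omega

end Vale.Agent.P230
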