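import Vale.Agent.P230.Config

/-! The random convex body and the choice of its cutting points. -/

namespace Vale.Agent.P230

open Finset MeasureTheory

variable {n : ℕ} {R ρ D θ G J : ℝ}

/-- A ball cut by one half-space for every point of `F`. -/
def body (R ρ : ℝ) (F : Finset (Zn n)) : Set (En n) :=
  {x | ‖x‖ ≤ R ∧ ∀ p ∈ F, ρ ^ 2 ≤ ‖x - emb p‖ ^ 2 + R ^ 2 - ‖x‖ ^ 2}

lemma norm_sub_sq_sub (x p : En n) : ‖x - p‖ ^ 2 - ‖x‖ ^ 2 = ‖p‖ ^ 2 - 2 * inner ℝ x p := by
  rw [norm_sub_sq_real]; ring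

lemma convex_body (R ρ : ℝ) (F : Finset (Zn n)) : Convex ℝ (body R ρ F) := by
  intro x hx y hy a b ha hb hab
  refine ⟨?_, fun p hp => ?_⟩
  · have := convex_closedBall (0 : En n) R (mem_closedBall_zero_iff.2 hx.1)
      (mem_closedBall_zero_iff.2 hy.1) ha hb hab
    exact mem_closedBall_zero_iff.1 this
  · have h1 := hx.2 p hp
    have h2 := hy.2 p hp
    have h3 := norm_sub_sq_sub x (emb p)
    have h4 := norm_sub_sq_sub y (emb p)
    have h5 := norm_sub_sq_sub (a • x + b • y) (emb p)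
    rw [inner_add_left, real_inner_smul_left, real_inner_smul_left] at h5
    have h6 : a * (ρ ^ 2) ≤ a * (‖emb p‖ ^ 2 - 2 * inner ℝ x (emb p) + R ^ 2) :=
      mul_le_mul_of_nonneg_left (by linarith) ha
    have h7 : b * (ρ ^ 2) ≤ b * (‖emb p‖ ^ 2 - 2 * inner ℝ y (emb p) + R ^ 2) :=
      mul_le_mul_of_nonneg_left (by linarith) hb
    have h8 : b = 1 - a := by linarith
    subst h8
    nlinarith

lemma isCompact_body (R ρ : ℝ) (F : Finset (Zn n)) : IsCompact (body R ρ F) := by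
  refine (isCompact_closedBall (0 : En n) R).of_isClosed_subset ?_
    fun x hx => mem_closedBall_zero_iff.2 hx.1
  have : body R ρ F = {x | ‖x‖ ≤ R} ∩
      ⋂ p ∈ F, {x | ρ ^ 2 ≤ ‖x - emb p‖ ^ 2 + R ^ 2 - ‖x‖ ^ 2} := by
    ext x; simp [body]
  rw [this]
  refine (isClosed_le (by fun_prop) (by fun_prop)).inter ?_
  exact isClosed_biInter fun p _ => isClosed_le (by fun_prop) (by fun_prop)

lemma Par.interior_body (P : Par n R ρ D θ G J) (F : Finset (Zn n)) :
    (interior (body R ρ F)).Nonempty := by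
  refine ⟨0, mem_interior.2 ⟨Metric.ball 0 1, fun x hx => ?_, Metric.isOpen_ball,
    Metric.mem_ball_self one_pos⟩⟩
  have h1 : ‖x‖ < 1 := mem_ball_zero_iff.1 hx
  have h2 := P.one_le
  have h3 := P.rho_pos
  have h4 := P.rho_small
  have h5 := norm_nonneg x
  refine ⟨by linarith, fun p _ => ?_⟩
  have h6 : (ρ + 2) ^ 2 ≤ R ^ 2 := pow_le_pow_left₀ (by positivity) (by linarith) 2
  nlinarith [sq_nonneg ‖x - emb p‖]

lemma psi_var {x y p : En n} {a b : ℝ} (h : ‖x - y‖ ≤ a) (hp : ‖p‖ ≤ b) :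
    (‖x - p‖ ^ 2 - ‖x‖ ^ 2) - (‖y - p‖ ^ 2 - ‖y‖ ^ 2) ≤ 2 * (a * b) := by
  rw [norm_sub_sq_sub, norm_sub_sq_sub]
  have h1 := abs_real_inner_le_norm (x - y) p
  rw [inner_sub_left] at h1
  have h2 : ‖x - y‖ * ‖p‖ ≤ a * b :=
    mul_le_mul h hp (norm_nonneg _) ((norm_nonneg _).trans h)
  have h3 := (abs_le.1 h1).1
  linarith

lemma Par.not_mem_body (P : Par n R ρ D θ G J) {F : Finset (Zn n)} {v p : Zn n}
    (hv : v ∈ K0 n R) (hp : p ∈ cap R ρ v) (hF : p ∈ F) {x : En n} (hx : ‖x - emb v‖ ≤ n) :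
    x ∉ body R ρ F := by
  intro h
  have h1 := h.2 p hF
  have h2 := (mem_LB_zero.1 (P.cap_subset hv hp)).le
  have h3 := psi_var hx h2
  have h4 := mem_LB.1 hp
  rw [Real.lt_sqrt (norm_nonneg _), norm_sub_rev] at h4
  have h5 := P.R_pos
  have h6 := P.one_le
  unfold dep at h4
  nlinarith

lemma Par.mem_body (P : Par n R ρ D θ G J) {F : Finset (Zn n)} (hF : F ⊆ LB 0 (2 * R)) {v : Zn n}
    (hv : v ∈ LB 0 (R - 4 * n)) (hd : Disjoint F (LB (emb v) ρ)) {x : En n}
    (hx : ‖x - emb v‖ ≤ n) : x ∈ body R ρ F := by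
  have h1 := mem_LB_zero.1 hv
  have h5 := P.R_pos
  have h6 := P.one_le
  constructor
  · calc ‖x‖ = ‖(x - emb v) + emb v‖ := by congr 1; abel
      _ ≤ ‖x - emb v‖ + ‖emb v‖ := norm_add_le _ _
      _ ≤ R := by linarith
  · intro p hp
    have h2 := (mem_LB_zero.1 (hF hp)).le
    have h3 := psi_var (x := emb v) (y := x) (a := n) (by rwa [norm_sub_rev]) h2
    have h4 : ρ ≤ ‖emb v - emb p‖ := by
      by_contra h
      exact disjoint_left.1 hd hp (mem_LB.2 (by rw [norm_sub_rev]; exact not_le.1 h))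
    have h7 := pow_le_pow_left₀ P.rho_pos.le h4 2
    have h8 := norm_nonneg (emb v)
    nlinarith

/-- Number of deep cells that survive. -/
noncomputable def surv (R ρ : ℝ) (F : Finset (Zn n)) : Finset (Zn n) :=
  (LB 0 (R - 4 * n)).filter fun v => Disjoint F (LB (emb v) ρ)

lemma Par.surv_le_volume (P : Par n R ρ D θ G J) {F : Finset (Zn n)} (hF : F ⊆ LB 0 (2 * R)) :
    ((surv R ρ F).card : ENNReal) ≤ volume (body R ρ F) :=
  card_le_volume _ _ fun x hx =>
    P.mem_body hF (mem_filter.1 hx).1 (mem_filter.1 hx).2 (norm_sub_fl x)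

lemma Par.prob_surv (P : Par n R ρ D θ G J) (hR : 8 * (n : ℝ) ^ 2 ≤ R) :
    1 / 4 ≤ Ex (qq n ρ) (LB 0 (2 * R))
      (fun F : Finset (Zn n) => if om n * R ^ n / 16 ≤ (surv R ρ F).card then 1 else 0) := by
  have h0 := P.rho_pos
  have h1 := om_pos n
  have hn := P.one_le
  have hR0 := P.R_pos
  have hk : om n * R ^ n / 4 ≤ (LB (0 : En n) (R - 4 * n)).card := by
    refine le_trans ?_ (le_card_LB P.n_pos 0 (by nlinarith))
    have := sub_pow_ge_half (s := 4 * n) hR0 n P.n_pos (by nlinarith)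
    have := mul_le_mul_of_nonneg_left this h1.le
    linarith
  set k : ℝ := ((LB (0 : En n) (R - 4 * n)).card : ℝ) with hkdef
  have hk0 : 0 < k := lt_of_lt_of_le (by positivity) hk
  have h2 : k / 2 ≤ Ex (qq n ρ) (LB 0 (2 * R)) (fun F : Finset (Zn n) => ((surv R ρ F).card : ℝ)) := by
    simp only [surv, card_filter, Nat.cast_sum, Nat.cast_ite, Nat.cast_one, Nat.cast_zero]
    rw [Ex_sum]
    calc k / 2 = ∑ _v ∈ LB (0 : En n) (R - 4 * n), (1 / 2 : ℝ) := by
          rw [sum_const, nsmul_eq_mul]; ring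
      _ ≤ _ := by
          refine sum_le_sum fun v hv => le_trans ?_ (Ex_miss P.qq_pos.le P.qq_le_one _ _ ?_)
          · have h3 := card_LB_le (emb v) h0 (by nlinarith [P.rho_big])
            have h4 := mul_le_mul_of_nonneg_left h3 P.qq_pos.le
            have h5 : qq n ρ * (2 * (om n * ρ ^ n)) = 1 / 2 := by
              unfold qq; field_simp; ring
            linarith
          · intro p hp
            have h3 := mem_LB.1 hp
            have h4 := mem_LB_zero.1 hv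
            have h5 := P.rho_small
            rw [mem_LB_zero]
            calc ‖emb p‖ = ‖(emb p - emb v) + emb v‖ := by congr 1; abel
              _ ≤ ‖emb p - emb v‖ + ‖emb v‖ := norm_add_le _ _
              _ < 2 * R := by linarith
  have h3 : Ex (qq n ρ) (LB 0 (2 * R)) (fun F : Finset (Zn n) => ((surv R ρ F).card : ℝ)) ≤
      Ex (qq n ρ) (LB 0 (2 * R)) (fun F : Finset (Zn n) =>
        k * (if om n * R ^ n / 16 ≤ (surv R ρ F).card then 1 else 0) + k / 4) := by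
    refine Ex_mono P.qq_pos.le P.qq_le_one _ fun F _ => ?_
    split_ifs with h
    · have : ((surv R ρ F).card : ℝ) ≤ k := Nat.cast_le.2 (card_filter_le _ _)
      linarith
    · linarith
  rw [Ex_add, Ex_const, Ex_const_mul] at h3
  by_contra hc
  push Not at hc
  nlinarith

/-- Penalty of a relative position. -/
noncomputable def psi (R ρ D G : ℝ) (v : Zn n) : ℝ :=
  if v ∈ K0 n R then (if dep R v ≤ D then cost R ρ v / G else 1) else 0

lemma Par.psi_nonneg (P : Par n R ρ D θ G J) (hG : 0 < G) (v : Zn n) : 0 ≤ psi R ρ D G v := by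
  unfold psi
  split_ifs with h1 h2
  · have := P.dep_nonneg h1
    unfold cost; positivity
  · norm_num
  · exact le_rfl

lemma Par.one_le_psi (P : Par n R ρ D θ G J) (hG : 0 < G) {Y : Finset (Zn n)} {y : Zn n}
    (h : ¬ Good R ρ D G Y y) : 1 ≤ ∑ u ∈ Y, psi R ρ D G (y - u) := by
  by_cases h1 : ∀ u ∈ rel R Y y, dep R (y - u) ≤ D
  · have h2 : G < ∑ u ∈ rel R Y y, cost R ρ (y - u) := by
      by_contra h3
      exact h ⟨h1, not_lt.1 h3⟩
    have h3 : ∑ u ∈ rel R Y y, cost R ρ (y - u) / G ≤ ∑ u ∈ Y, psi R ρ D G (y - u) := by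
      refine le_trans (le_of_eq (sum_congr rfl fun u hu => ?_))
        (sum_le_sum_of_subset_of_nonneg (filter_subset _ _) fun u _ _ => P.psi_nonneg hG _)
      rw [psi, if_pos (mem_rel.1 hu).2, if_pos (h1 u hu)]
    rw [← sum_div] at h3
    exact le_trans ((one_le_div hG).2 h2.le) h3
  · push Not at h1
    obtain ⟨u, hu, h2⟩ := h1
    refine le_trans (le_of_eq ?_) (single_le_sum (f := fun u => psi R ρ D G (y - u))
      (fun u _ => P.psi_nonneg hG _) (mem_rel.1 hu).1)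
    simp only [psi, if_pos (mem_rel.1 hu).2, if_neg (not_le.2 h2)]

/-- Sparse configurations. -/
def Sparse (R ρ D G J : ℝ) (Y : Finset (Zn n)) : Prop :=
  Y ⊆ LB 0 (3 * R) ∧ (Y.card : ℝ) ≤ J ∧
    ∑ y ∈ LB (0 : En n) R, ∑ u ∈ Y, psi R ρ D G (y - u) ≤ (LB (0 : En n) R).card / 2

lemma Par.sparse_miss (P : Par n R ρ D θ G J) (hG : 0 < G) {Y : Finset (Zn n)}
    (hY : Sparse R ρ D G J Y) (M : ℕ) (hM : M * (J ^ 2 * (16 * (3 * ρ) ^ n)) ≤ R ^ n) :
    Ex (qq n ρ) (LB 0 (2 * R)) (miss (caps R ρ Y) (LB 0 R)) ≤ (3 / 4) ^ M := by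
  classical
  have h1 := om_pos n
  refine le_trans (Ex_mono P.qq_pos.le P.qq_le_one _ fun F _ =>
    miss_anti _ (filter_subset (Good R ρ D G Y) _) F) ?_
  refine P.config hY.2.1 (filter_subset _ _) (fun y hy => (mem_filter.1 hy).2) M ?_
  have h2 := le_card_LB P.n_pos (0 : En n) (r := R)
    (by nlinarith [P.rho_big, P.rho_small, P.one_le])
  have h3 := card_filter_add_card_filter_not (s := LB (0 : En n) R) (Good R ρ D G Y)
  have h4 : (((LB (0 : En n) R).filter fun y => ¬ Good R ρ D G Y y).card : ℝ) ≤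
      (LB (0 : En n) R).card / 2 := by
    refine le_trans ?_ hY.2.2
    rw [card_eq_sum_ones]
    push_cast
    refine (sum_le_sum fun y hy => P.one_le_psi hG (mem_filter.1 hy).2).trans ?_
    exact sum_le_sum_of_subset_of_nonneg (filter_subset _ _)
      fun y _ _ => sum_nonneg fun u _ => P.psi_nonneg hG _
  have h5 : (((LB (0 : En n) R).filter (Good R ρ D G Y)).card : ℝ) +
      ((LB (0 : En n) R).filter fun y => ¬ Good R ρ D G Y y).card = (LB (0 : En n) R).card := by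
    exact_mod_cast h3
  have h6 := mul_le_mul_of_nonneg_left hM h1.le
  nlinarith

lemma card_small_subsets {α : Type*} [DecidableEq α] (B : Finset α) (J : ℕ) :
    (B.powerset.filter fun Y => Y.card ≤ J).card ≤ (B.card + 1) ^ J := by
  have h1 : (B.powerset.filter fun Y => Y.card ≤ J) ⊆
      (range (J + 1)).biUnion fun k => powersetCard k B := by
    intro Y hY
    rw [mem_filter, mem_powerset] at hY
    exact mem_biUnion.2 ⟨Y.card, mem_range.2 (by omega), mem_powersetCard.2 ⟨hY.1, rfl⟩⟩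
  refine (card_le_card h1).trans (card_biUnion_le.trans ?_)
  rw [add_pow]
  refine sum_le_sum fun k hk => ?_
  rw [card_powersetCard, one_pow, mul_one, Nat.cast_id]
  have h2 : 1 ≤ J.choose k := Nat.choose_pos (by have := mem_range.1 hk; omega)
  exact (Nat.choose_le_pow _ _).trans (Nat.le_mul_of_pos_right _ h2)

theorem Par.exists_F {R J : ℕ} (P : Par n R ρ D θ G J) (hR : 8 * (n : ℝ) ^ 2 ≤ R) (hG : 0 < G)
    (M : ℕ) (hM : M * ((J : ℝ) ^ 2 * (16 * (3 * ρ) ^ n)) ≤ R ^ n)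
    (hU : (((6 * R + 1) ^ n + 1 : ℕ) : ℝ) ^ J * (3 / 4) ^ M < 1 / 4) :
    ∃ F : Finset (Zn n), F ⊆ LB 0 (2 * R) ∧ om n * R ^ n / 16 ≤ (surv R ρ F).card ∧
      ∀ Y, Sparse R ρ D G J Y → ∃ y ∈ LB (0 : En n) R, Hit (caps R ρ Y y) F := by
  classical
  set S := (LB (0 : En n) (3 * R)).powerset.filter (Sparse (R : ℝ) ρ D G J) with hS
  have h1 : (S.card : ℝ) ≤ (((6 * R + 1) ^ n + 1 : ℕ) : ℝ) ^ J := by
    have h2 : S ⊆ (LB (0 : En n) (3 * R)).powerset.filter fun Y => Y.card ≤ J := by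
      intro Y hY
      rw [mem_filter] at hY ⊢
      exact ⟨hY.1, by exact_mod_cast hY.2.2.1⟩
    have h3 := (card_le_card h2).trans (card_small_subsets _ J)
    have h4 : (LB (0 : En n) (3 * R)).card ≤ (6 * R + 1) ^ n := by
      have := card_LB_le_cube (n := n) (R := 3 * R)
      push_cast at this
      convert this using 3
      ring
    have h5 := h3.trans (Nat.pow_le_pow_left (Nat.add_le_add_right h4 1) J)
    exact_mod_cast h5
  have h2 : Ex (qq n ρ) (LB 0 (2 * R)) (fun F => ∑ Y ∈ S, miss (caps R ρ Y) (LB 0 R) F) <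
      Ex (qq n ρ) (LB 0 (2 * R))
        (fun F : Finset (Zn n) => if om n * R ^ n / 16 ≤ (surv R ρ F).card then 1 else 0) := by
    refine lt_of_lt_of_le ?_ (P.prob_surv hR)
    rw [Ex_sum]
    refine lt_of_le_of_lt (sum_le_sum fun Y hY => P.sparse_miss hG (mem_filter.1 hY).2 M hM) ?_
    rw [sum_const, nsmul_eq_mul]
    exact lt_of_le_of_lt (mul_le_mul_of_nonneg_right h1 (by positivity)) hU
  obtain ⟨F, hF, h3⟩ := exists_of_Ex_lt P.qq_pos.le P.qq_le_one _ h2
  have h4 : 0 ≤ ∑ Y ∈ S, miss (caps R ρ Y) (LB 0 R) F := sum_nonneg fun Y _ => miss_nonneg _ _ _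
  have h5 : om n * R ^ n / 16 ≤ (surv R ρ F).card := by
    by_contra h
    rw [if_neg h] at h3
    linarith
  refine ⟨F, hF, h5, fun Y hY => ?_⟩
  rw [if_pos h5] at h3
  have h6 : miss (caps R ρ Y) (LB 0 R) F < 1 :=
    lt_of_le_of_lt (single_le_sum (f := fun Y => miss (caps R ρ Y) (LB 0 R) F)
      (fun Y _ => miss_nonneg _ _ _) (mem_filter.2 ⟨mem_powerset.2 hY.1, hY⟩)) h3
  by_contra hc
  push Not at hc
  unfold miss at h6
  rw [if_pos hc] at h6
  exact lt_irrefl _ h6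

end Vale.Agent.P230
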