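import Vale.Agent.P230.Second
import Vale.Agent.P230.Ball

/-! A fixed sparse configuration of centres is unlikely to cover the test ball. -/

namespace Vale.Agent.P230

open Finset

variable {n : ℕ}

/-- Depth of an integer point below the sphere of radius `R`, with slack. -/
noncomputable def dep (R : ℝ) (v : Zn n) : ℝ := 8 * R * n + R ^ 2 - ‖emb v‖ ^ 2

/-- The points whose half-spaces cut off the cell of `v`. -/
noncomputable def cap (R ρ : ℝ) (v : Zn n) : Finset (Zn n) := LB (emb v) (√(ρ ^ 2 - dep R v))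

/-- The integer points near the ball of radius `R`. -/
noncomputable def K0 (n : ℕ) (R : ℝ) : Finset (Zn n) := LB 0 (R + 2 * n)

/-- Centres that may cover `y`. -/
noncomputable def rel (R : ℝ) (Y : Finset (Zn n)) (y : Zn n) : Finset (Zn n) :=
  Y.filter fun u => y - u ∈ K0 n R

/-- Caps to be hit for `y` to be uncovered. -/
noncomputable def caps (R ρ : ℝ) (Y : Finset (Zn n)) (y : Zn n) : List (Finset (Zn n)) :=
  (rel R Y y).toList.map fun u => cap R ρ (y - u)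

/-- Logarithmic cost of hitting the cap of `v`. -/
noncomputable def cost (R ρ : ℝ) (v : Zn n) : ℝ := 3 + n * (dep R v / ρ ^ 2)

/-- Selection probability. -/
noncomputable def qq (n : ℕ) (ρ : ℝ) : ℝ := 1 / (4 * (om n * ρ ^ n))

/-- Good test points. -/
def Good (R ρ D G : ℝ) (Y : Finset (Zn n)) (y : Zn n) : Prop :=
  (∀ u ∈ rel R Y y, dep R (y - u) ≤ D) ∧ ∑ u ∈ rel R Y y, cost R ρ (y - u) ≤ G

/-- Parameter constraints. -/
structure Par (n : ℕ) (R ρ D θ G J : ℝ) : Prop where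
  n_pos : 1 ≤ n
  rho_big : 4 * (n : ℝ) ^ 2 ≤ ρ
  rho_small : ρ + 2 * n ≤ R
  D_small : D ≤ ρ ^ 2 / 2
  theta_sq : θ ^ 2 = 24 * D
  theta_small : θ ≤ ρ
  theta_big : 2 * (n : ℝ) ^ 2 ≤ θ
  far : G * (G * (32 * Real.exp (-(n * (D / ρ ^ 2))))) ≤ 1
  near : J ^ 2 * (2 * θ ^ n) * Real.exp (2 * G) ≤ ρ ^ n / (32 * 2 ^ n)

variable {R ρ D θ G J : ℝ}

lemma Par.one_le (P : Par n R ρ D θ G J) : (1 : ℝ) ≤ n := by exact_mod_cast P.n_pos

lemma Par.rho_pos (P : Par n R ρ D θ G J) : 0 < ρ := by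
  have := P.one_le; have := P.rho_big; nlinarith

lemma Par.R_pos (P : Par n R ρ D θ G J) : 0 < R := by
  have := P.one_le; have := P.rho_pos; have := P.rho_small; linarith

lemma Par.theta_pos (P : Par n R ρ D θ G J) : 0 < θ := by
  have := P.one_le; have := P.theta_big; nlinarith

lemma Par.qq_pos (P : Par n R ρ D θ G J) : 0 < qq n ρ := by
  have := P.rho_pos; have := om_pos n; unfold qq; positivity

lemma Par.qq_le_one (P : Par n R ρ D θ G J) : qq n ρ ≤ 1 := by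
  have h0 := P.rho_pos
  have h1 := card_LB_le (0 : En n) h0 (by have := P.rho_big; nlinarith)
  have h2 : 1 ≤ (LB (0 : En n) ρ).card :=
    card_pos.2 ⟨0, mem_LB_zero.2 (by rw [emb_zero, norm_zero]; exact h0)⟩
  have h3 : (1 : ℝ) ≤ (LB (0 : En n) ρ).card := by exact_mod_cast h2
  unfold qq
  rw [div_le_one (by linarith)]
  linarith

lemma Par.dep_nonneg (P : Par n R ρ D θ G J) {v : Zn n} (hv : v ∈ K0 n R) : 0 ≤ dep R v := by
  have h1 := mem_LB_zero.1 hv
  have h2 := P.one_le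
  have h3 := P.rho_pos
  have h4 := P.rho_small
  have h5 : ‖emb v‖ ^ 2 ≤ (R + 2 * n) ^ 2 := pow_le_pow_left₀ (norm_nonneg _) h1.le 2
  unfold dep
  nlinarith

lemma Par.mem_cap (P : Par n R ρ D θ G J) {v p : Zn n} (hv : v ∈ K0 n R) (hp : p ∈ cap R ρ v) :
    ‖emb p - emb v‖ < ρ := by
  refine (mem_LB.1 hp).trans_le ?_
  have := P.dep_nonneg hv
  exact Real.sqrt_le_iff.2 ⟨P.rho_pos.le, by linarith⟩

lemma Par.cap_subset (P : Par n R ρ D θ G J) {v : Zn n} (hv : v ∈ K0 n R) :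
    cap R ρ v ⊆ LB 0 (2 * R) := by
  intro p hp
  have h1 := P.mem_cap hv hp
  have h2 := mem_LB_zero.1 hv
  have h3 := P.rho_small
  rw [mem_LB_zero]
  calc ‖emb p‖ = ‖(emb p - emb v) + emb v‖ := by congr 1; abel
    _ ≤ ‖emb p - emb v‖ + ‖emb v‖ := norm_add_le _ _
    _ < 2 * R := by linarith

lemma exp_neg_two_mul_le {u : ℝ} (h0 : 0 ≤ u) (h1 : u ≤ 1 / 2) : Real.exp (-u) ^ 2 ≤ 1 - u := by
  have h2 := Real.add_one_le_exp (2 * u)
  have h3 : Real.exp (-u) ^ 2 * Real.exp (2 * u) = 1 := by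
    rw [← Real.exp_nat_mul, ← Real.exp_add]; simp
  have h4 : 0 < Real.exp (-u) ^ 2 := by positivity
  have h5 : Real.exp (-u) ^ 2 * (2 * u + 1) ≤ 1 := by nlinarith
  nlinarith

lemma Par.cap_card (P : Par n R ρ D θ G J) {v : Zn n} (hv : v ∈ K0 n R) (hD : dep R v ≤ D) :
    Real.exp (-(n * (dep R v / ρ ^ 2))) / 8 ≤ qq n ρ * (cap R ρ v).card := by
  have h0 := P.rho_pos
  have h1 := P.dep_nonneg hv
  have h2 := P.D_small
  have h3 : ρ / 2 ≤ √(ρ ^ 2 - dep R v) := Real.le_sqrt_of_sq_le (by nlinarith)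
  have h4 := le_card_LB P.n_pos (emb v) (r := √(ρ ^ 2 - dep R v)) (by linarith [P.rho_big])
  have h5 : ρ * Real.exp (-(dep R v / ρ ^ 2)) ≤ √(ρ ^ 2 - dep R v) := by
    refine Real.le_sqrt_of_sq_le ?_
    have h6 := exp_neg_two_mul_le (u := dep R v / ρ ^ 2) (by positivity)
      (by rw [div_le_iff₀ (by positivity)]; linarith)
    rw [mul_pow]
    calc ρ ^ 2 * Real.exp (-(dep R v / ρ ^ 2)) ^ 2 ≤ ρ ^ 2 * (1 - dep R v / ρ ^ 2) :=
          mul_le_mul_of_nonneg_left h6 (by positivity)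
      _ = ρ ^ 2 - dep R v := by field_simp
  have h6 := pow_le_pow_left₀ (by positivity) h5 n
  rw [mul_pow, ← Real.exp_nat_mul, mul_neg] at h6
  have h7 := om_pos n
  unfold qq cap
  calc Real.exp (-(n * (dep R v / ρ ^ 2))) / 8
      = 1 / (4 * (om n * ρ ^ n)) * (om n * (ρ ^ n * Real.exp (-(n * (dep R v / ρ ^ 2)))) / 2) := by
        field_simp; ring
    _ ≤ _ := by
        refine mul_le_mul_of_nonneg_left (le_trans ?_ h4) (by positivity)
        gcongr

lemma Par.inter_card (P : Par n R ρ D θ G J) {v w : Zn n} (hv : v ∈ K0 n R) (hw : w ∈ K0 n R)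
    (h : θ ≤ ‖emb v - emb w‖) :
    qq n ρ * (cap R ρ v ∩ cap R ρ w).card ≤ Real.exp (-(n * (3 * D / ρ ^ 2))) / 2 := by
  have h0 := P.rho_pos
  have ht := P.theta_pos
  have hu : 3 * D / ρ ^ 2 ≤ 1 / 8 := by
    rw [div_le_iff₀ (by positivity)]
    have := P.theta_sq
    have := pow_le_pow_left₀ ht.le P.theta_small 2
    linarith
  have h1 : cap R ρ v ∩ cap R ρ w ⊆
      LB ((1 / 2 : ℝ) • (emb v + emb w)) (ρ * Real.exp (-(3 * D / ρ ^ 2))) := by
    intro p hp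
    have h2 := P.mem_cap hv (mem_inter.1 hp).1
    have h3 := P.mem_cap hw (mem_inter.1 hp).2
    rw [mem_LB]
    have h4 := parallelogram_law_with_norm ℝ (emb p - emb v) (emb p - emb w)
    have h5 : emb p - emb v + (emb p - emb w) =
        (2 : ℝ) • (emb p - (1 / 2 : ℝ) • (emb v + emb w)) := by module
    have h6 : emb p - emb v - (emb p - emb w) = -(emb v - emb w) := by abel
    rw [h5, h6, norm_neg, norm_smul, Real.norm_ofNat] at h4
    refine lt_of_pow_lt_pow_left₀ 2 (by positivity) ?_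
    have h7 : 1 - 6 * D / ρ ^ 2 ≤ Real.exp (-(3 * D / ρ ^ 2)) ^ 2 := by
      rw [← Real.exp_nat_mul]
      have := Real.add_one_le_exp ((2 : ℕ) * -(3 * D / ρ ^ 2))
      refine le_trans (le_of_eq ?_) this
      push_cast; ring
    have h8 : ρ ^ 2 - 6 * D ≤ (ρ * Real.exp (-(3 * D / ρ ^ 2))) ^ 2 := by
      rw [mul_pow]
      refine le_trans (le_of_eq ?_) (mul_le_mul_of_nonneg_left h7 (by positivity))
      field_simp
    have h9 := P.theta_sq
    have e1 := pow_lt_pow_left₀ h2 (norm_nonneg _) two_ne_zero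
    have e2 := pow_lt_pow_left₀ h3 (norm_nonneg _) two_ne_zero
    have e3 := pow_le_pow_left₀ ht.le h 2
    nlinarith
  have h2 : ρ / 2 ≤ ρ * Real.exp (-(3 * D / ρ ^ 2)) := by
    have := Real.add_one_le_exp (-(3 * D / ρ ^ 2))
    nlinarith
  have h3 := card_LB_le ((1 / 2 : ℝ) • (emb v + emb w)) (r := ρ * Real.exp (-(3 * D / ρ ^ 2)))
    (by positivity) (by linarith [P.rho_big])
  have h4 : ((cap R ρ v ∩ cap R ρ w).card : ℝ) ≤ _ := (Nat.cast_le.2 (card_le_card h1)).trans h3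
  rw [mul_pow, ← Real.exp_nat_mul, mul_neg] at h4
  refine (mul_le_mul_of_nonneg_left h4 P.qq_pos.le).trans (le_of_eq ?_)
  have h7 := om_pos n
  unfold qq
  field_simp
  ring

lemma mem_caps {Y : Finset (Zn n)} {y : Zn n} {C : Finset (Zn n)} (h : C ∈ caps R ρ Y y) :
    ∃ u ∈ rel R Y y, C = cap R ρ (y - u) := by
  obtain ⟨u, hu, rfl⟩ := List.mem_map.1 h
  exact ⟨u, mem_toList.1 hu, rfl⟩

lemma mem_rel {Y : Finset (Zn n)} {y u : Zn n} : u ∈ rel R Y y ↔ u ∈ Y ∧ y - u ∈ K0 n R :=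
  mem_filter

lemma Par.caps_subset (P : Par n R ρ D θ G J) (Y : Finset (Zn n)) (y : Zn n) :
    ∀ C ∈ caps R ρ Y y, C ⊆ LB 0 (2 * R) := by
  intro C hC
  obtain ⟨u, hu, rfl⟩ := mem_caps hC
  exact P.cap_subset (mem_rel.1 hu).2

lemma Par.caps_nonempty (P : Par n R ρ D θ G J) {Y : Finset (Zn n)} {y : Zn n}
    (hy : Good R ρ D G Y y) : ∀ C ∈ caps R ρ Y y, C.Nonempty := by
  intro C hC
  obtain ⟨u, hu, rfl⟩ := mem_caps hC
  have h1 := P.cap_card (mem_rel.1 hu).2 (hy.1 u hu)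
  rw [← card_pos]
  by_contra h
  have h2 : (cap R ρ (y - u)).card = 0 := by omega
  rw [h2] at h1
  have := Real.exp_pos (-(n * (dep R (y - u) / ρ ^ 2)))
  simp only [Nat.cast_zero, mul_zero] at h1
  linarith

lemma Par.length_le (P : Par n R ρ D θ G J) {Y : Finset (Zn n)} {y : Zn n}
    (hy : Good R ρ D G Y y) : ((caps R ρ Y y).length : ℝ) ≤ G := by
  refine le_trans ?_ hy.2
  have : ((caps R ρ Y y).length : ℝ) = ∑ u ∈ rel R Y y, (1 : ℝ) := by simp [caps]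
  rw [this]
  refine sum_le_sum fun u hu => ?_
  have h1 := P.dep_nonneg (mem_rel.1 hu).2
  have : 0 ≤ n * (dep R (y - u) / ρ ^ 2) := by positivity
  unfold cost
  linarith

lemma nine_le_exp : 9 ≤ Real.exp 3 := by
  have h1 : Real.exp 3 = Real.exp 1 ^ 3 := by rw [← Real.exp_nat_mul]; norm_num
  have h2 := Real.exp_one_gt_d9
  have h3 : (2.7 : ℝ) ^ 3 ≤ Real.exp 1 ^ 3 := pow_le_pow_left₀ (by norm_num) (by linarith) 3
  rw [h1]
  linarith [show (9 : ℝ) ≤ 2.7 ^ 3 by norm_num]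

lemma Par.pair_near (P : Par n R ρ D θ G J) {Y : Finset (Zn n)} {y y' : Zn n}
    (hy : Good R ρ D G Y y) (hy' : Good R ρ D G Y y') :
    pair (qq n ρ) (caps R ρ Y y) (caps R ρ Y y') ≤ Real.exp (2 * G) := by
  refine (pair_le_a P.qq_pos _ (P.caps_subset Y y) (P.caps_nonempty hy)).trans ?_
  rw [two_mul, Real.exp_add]
  have h1 : (2 : ℝ) ^ (caps R ρ Y y).length ≤ Real.exp G := by
    refine le_trans ?_ (Real.exp_le_exp.2 (P.length_le hy))
    rw [← mul_one ((caps R ρ Y y).length : ℝ), Real.exp_nat_mul]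
    exact pow_le_pow_left₀ (by norm_num) (by linarith [Real.exp_one_gt_d9]) _
  have h2 : ((caps R ρ Y y').map fun C => 1 + 1 / (qq n ρ * C.card)).prod =
      ∏ u ∈ rel R Y y', (1 + 1 / (qq n ρ * (cap R ρ (y' - u)).card)) := by
    rw [caps, List.map_map, prod_map_toList]
    rfl
  have hq := P.qq_pos
  rw [h2]
  refine mul_le_mul h1 ?_ (prod_nonneg fun u _ => by positivity) (Real.exp_pos _).le
  refine le_trans ?_ (Real.exp_le_exp.2 hy'.2)
  rw [Real.exp_sum]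
  refine prod_le_prod (fun u _ => by positivity) fun u hu => ?_
  have h3 := P.cap_card (mem_rel.1 hu).2 (hy'.1 u hu)
  have h4 := P.dep_nonneg (mem_rel.1 hu).2
  have h5 : 1 ≤ Real.exp (n * (dep R (y' - u) / ρ ^ 2)) := Real.one_le_exp (by positivity)
  have h6 : 1 / (qq n ρ * (cap R ρ (y' - u)).card) ≤ 8 * Real.exp (n * (dep R (y' - u) / ρ ^ 2)) := by
    refine (one_div_le_one_div_of_le (by positivity) h3).trans (le_of_eq ?_)
    rw [Real.exp_neg]
    field_simp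
  rw [cost, Real.exp_add]
  nlinarith [nine_le_exp]

lemma Par.pair_far (P : Par n R ρ D θ G J) {Y : Finset (Zn n)} {y y' : Zn n}
    (hy : Good R ρ D G Y y) (hy' : Good R ρ D G Y y')
    (h : ∀ u' ∈ Y, ∀ u ∈ Y, θ ≤ ‖emb (y' - u') - emb (y - u)‖) :
    pair (qq n ρ) (caps R ρ Y y) (caps R ρ Y y') ≤ 3 := by
  have hq := P.qq_pos
  have h0 := P.rho_pos
  refine (pair_le_b (ε := 32 * Real.exp (-(n * (D / ρ ^ 2)))) hq _ _ ?_).trans ?_
  · intro C hC C' hC'
    obtain ⟨u, hu, rfl⟩ := mem_caps hC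
    obtain ⟨u', hu', rfl⟩ := mem_caps hC'
    have h1 := P.inter_card (mem_rel.1 hu).2 (mem_rel.1 hu').2
      (by rw [norm_sub_rev]; exact h u' (mem_rel.1 hu').1 u (mem_rel.1 hu).1)
    have h2 : ∀ v ∈ K0 n R, dep R v ≤ D →
        Real.exp (-(n * (D / ρ ^ 2))) / 8 ≤ qq n ρ * (cap R ρ v).card := by
      intro v hv hD
      refine le_trans ?_ (P.cap_card hv hD)
      gcongr
    have h3 := h2 _ (mem_rel.1 hu).2 (hy.1 u hu)
    have h4 := h2 _ (mem_rel.1 hu').2 (hy'.1 u' hu')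
    have h5 : Real.exp (-(n * (3 * D / ρ ^ 2))) = Real.exp (-(n * (D / ρ ^ 2))) ^ 3 := by
      rw [← Real.exp_nat_mul]; congr 1; push_cast; ring
    rw [h5] at h1
    have he := Real.exp_pos (-(n * (D / ρ ^ 2)))
    set e := Real.exp (-(n * (D / ρ ^ 2)))
    calc ((cap R ρ (y - u) ∩ cap R ρ (y' - u')).card : ℝ) /
          (qq n ρ * (cap R ρ (y - u)).card * (cap R ρ (y' - u')).card)
        = (qq n ρ * (cap R ρ (y - u) ∩ cap R ρ (y' - u')).card) /
          ((qq n ρ * (cap R ρ (y - u)).card) * (qq n ρ * (cap R ρ (y' - u')).card)) := by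
          rw [mul_left_comm (qq n ρ * _), mul_div_mul_left _ _ hq.ne']
      _ ≤ (e ^ 3 / 2) / ((e / 8) * (e / 8)) := by gcongr
      _ = 32 * e := by field_simp; ring
  · refine le_trans (Real.exp_le_exp.2 (le_trans ?_ P.far)) (by linarith [Real.exp_one_lt_d9])
    have h1 := P.length_le hy
    have h2 := P.length_le hy'
    have h3 : (0 : ℝ) ≤ G := le_trans (Nat.cast_nonneg _) h1
    gcongr

lemma near_card (hn : 1 ≤ n) (Y T : Finset (Zn n)) (c : Zn n) {s : ℝ} (hs : 2 * (n : ℝ) ^ 2 ≤ s)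
    (hJ : (Y.card : ℝ) ≤ J) :
    ((T.filter fun y => ¬ ∀ u ∈ Y, ∀ u' ∈ Y, s ≤ ‖emb (y - u) - emb (c - u')‖).card : ℝ) ≤
      J ^ 2 * (2 * (om n * s ^ n)) := by
  have hn' : (1 : ℝ) ≤ n := by exact_mod_cast hn
  have hs0 : 0 < s := by nlinarith
  have h1 : (T.filter fun y => ¬ ∀ u ∈ Y, ∀ u' ∈ Y, s ≤ ‖emb (y - u) - emb (c - u')‖) ⊆
      (Y ×ˢ Y).biUnion fun p => LB (emb (c - p.2 + p.1)) s := by
    intro y hy
    have h2 := (mem_filter.1 hy).2
    push Not at h2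
    obtain ⟨u, hu, u', hu', h3⟩ := h2
    refine mem_biUnion.2 ⟨(u, u'), mem_product.2 ⟨hu, hu'⟩, mem_LB.2 ?_⟩
    rw [← emb_sub] at h3 ⊢
    have e : y - (c - u' + u) = y - u - (c - u') := by abel
    exact lt_of_eq_of_lt (by rw [← e]) h3
  have h2 : (((Y ×ˢ Y).biUnion fun p => LB (emb (c - p.2 + p.1)) s).card : ℝ) ≤
      ∑ p ∈ Y ×ˢ Y, ((LB (emb (c - p.2 + p.1)) s).card : ℝ) := by
    exact_mod_cast card_biUnion_le
  refine (Nat.cast_le.2 (card_le_card h1)).trans (h2.trans ?_)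
  refine (sum_le_sum fun p _ => card_LB_le _ hs0 hs).trans ?_
  have h3 := om_pos n
  simp only [sum_const, card_product, nsmul_eq_mul, Nat.cast_mul]
  rw [← sq]
  gcongr

lemma Par.group_miss (P : Par n R ρ D θ G J) {Y H : Finset (Zn n)} (hJ : (Y.card : ℝ) ≤ J)
    (hH : ∀ y ∈ H, Good R ρ D G Y y) (hc : om n * (ρ ^ n / (32 * 2 ^ n)) ≤ H.card) :
    Ex (qq n ρ) (LB 0 (2 * R)) (miss (caps R ρ Y) H) ≤ 3 / 4 := by
  have h0 := P.rho_pos
  have h1 := om_pos n
  have hne : H.Nonempty := by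
    rw [← card_pos]
    have : (0 : ℝ) < H.card := lt_of_lt_of_le (by positivity) hc
    exact_mod_cast this
  refine second_moment P.qq_pos P.qq_le_one _ _ H hne (fun y _ => P.caps_subset Y y)
    (fun y hy => P.caps_nonempty (hH y hy)) ?_
  have h2 : ∀ y ∈ H, ∑ y' ∈ H, pair (qq n ρ) (caps R ρ Y y) (caps R ρ Y y') ≤ 4 * H.card := by
    intro y hy
    rw [← sum_filter_add_sum_filter_not H
      (fun y' => ∀ u ∈ Y, ∀ u' ∈ Y, θ ≤ ‖emb (y' - u) - emb (y - u')‖)]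
    have h3 := near_card P.n_pos Y H y P.theta_big hJ
    have h4 := mul_le_mul_of_nonneg_left P.near h1.le
    have h5 : ∑ y' ∈ H.filter (fun y' => ∀ u ∈ Y, ∀ u' ∈ Y, θ ≤ ‖emb (y' - u) - emb (y - u')‖),
        pair (qq n ρ) (caps R ρ Y y) (caps R ρ Y y') ≤ 3 * H.card := by
      refine (sum_le_sum fun y' hy' => P.pair_far (hH y hy) (hH y' (mem_filter.1 hy').1)
        (mem_filter.1 hy').2).trans ?_
      rw [sum_const, nsmul_eq_mul, mul_comm]
      exact mul_le_mul_of_nonneg_left (Nat.cast_le.2 (card_filter_le _ _)) (by norm_num)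
    have h6 : ∑ y' ∈ H.filter (fun y' => ¬ ∀ u ∈ Y, ∀ u' ∈ Y, θ ≤ ‖emb (y' - u) - emb (y - u')‖),
        pair (qq n ρ) (caps R ρ Y y) (caps R ρ Y y') ≤ H.card := by
      refine (sum_le_sum fun y' hy' => P.pair_near (hH y hy) (hH y' (mem_filter.1 hy').1)).trans ?_
      rw [sum_const, nsmul_eq_mul]
      refine (mul_le_mul_of_nonneg_right h3 (Real.exp_pos _).le).trans ?_
      refine le_trans (le_of_eq ?_) (h4.trans hc)
      ring
    linarith
  refine (sum_le_sum h2).trans (le_of_eq ?_)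
  rw [sum_const, nsmul_eq_mul]; ring

lemma Par.exists_group (P : Par n R ρ D θ G J) {T : Finset (Zn n)} (hT : T ⊆ LB 0 R)
    (hc : om n * R ^ n / 8 ≤ T.card) :
    ∃ t : Zn n, om n * (ρ ^ n / (32 * 2 ^ n)) ≤ (T.filter fun y => ‖emb y - emb t‖ < ρ).card := by
  have h0 := P.rho_pos
  have h1 := om_pos n
  have hR := P.R_pos
  have hn := P.one_le
  have hne : (LB (0 : En n) (2 * R)).Nonempty :=
    ⟨0, mem_LB_zero.2 (by rw [emb_zero, norm_zero]; positivity)⟩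
  have h2 : ∑ t ∈ LB (0 : En n) (2 * R), om n * (ρ ^ n / (32 * 2 ^ n)) ≤
      ∑ t ∈ LB (0 : En n) (2 * R), ((T.filter fun y => ‖emb y - emb t‖ < ρ).card : ℝ) := by
    have h3 : ∑ t ∈ LB (0 : En n) (2 * R), ((T.filter fun y => ‖emb y - emb t‖ < ρ).card : ℝ) =
        ∑ y ∈ T, (((LB (0 : En n) (2 * R)).filter fun t => ‖emb y - emb t‖ < ρ).card : ℝ) := by
      simp only [card_filter, Nat.cast_sum]
      exact sum_comm
    have h4 : ∀ y ∈ T, om n * ρ ^ n / 2 ≤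
        (((LB (0 : En n) (2 * R)).filter fun t => ‖emb y - emb t‖ < ρ).card : ℝ) := by
      intro y hy
      refine (le_card_LB P.n_pos (emb y) (r := ρ) (by nlinarith [P.rho_big])).trans ?_
      refine Nat.cast_le.2 (card_le_card fun t ht => ?_)
      have h5 := mem_LB.1 ht
      have h6 := mem_LB_zero.1 (hT hy)
      have h7 := P.rho_small
      refine mem_filter.2 ⟨mem_LB_zero.2 ?_, by rwa [norm_sub_rev]⟩
      calc ‖emb t‖ = ‖(emb t - emb y) + emb y‖ := by congr 1; abel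
        _ ≤ ‖emb t - emb y‖ + ‖emb y‖ := norm_add_le _ _
        _ < 2 * R := by linarith
    have h5 := card_LB_le (0 : En n) (r := 2 * R) (by positivity)
      (by nlinarith [P.rho_big, P.rho_small])
    rw [h3]
    refine le_trans ?_ (sum_le_sum h4)
    rw [sum_const, sum_const, nsmul_eq_mul, nsmul_eq_mul]
    calc ((LB (0 : En n) (2 * R)).card : ℝ) * (om n * (ρ ^ n / (32 * 2 ^ n)))
        ≤ (2 * (om n * (2 * R) ^ n)) * (om n * (ρ ^ n / (32 * 2 ^ n))) := by gcongr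
      _ = (om n * R ^ n / 8) * (om n * ρ ^ n / 2) := by rw [mul_pow]; field_simp; ring
      _ ≤ _ := by gcongr
  obtain ⟨t, _, ht⟩ := exists_le_of_sum_le hne h2
  exact ⟨t, ht⟩

theorem Par.config (P : Par n R ρ D θ G J) {Y T : Finset (Zn n)} (hJ : (Y.card : ℝ) ≤ J)
    (hT : T ⊆ LB 0 R) (hg : ∀ y ∈ T, Good R ρ D G Y y) (M : ℕ)
    (hM : om n * R ^ n / 8 + M * (J ^ 2 * (2 * (om n * (3 * ρ) ^ n))) ≤ T.card) :
    Ex (qq n ρ) (LB 0 (2 * R)) (miss (caps R ρ Y) T) ≤ (3 / 4) ^ M := by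
  have h0 := P.rho_pos
  have h1 := om_pos n
  refine groups P.qq_pos.le P.qq_le_one _ _ T (om n * R ^ n / 8) _ (by positivity) ?_ M T
    subset_rfl hM
  intro T' hT' hc
  obtain ⟨t, ht⟩ := P.exists_group (hT'.trans hT) hc
  refine ⟨_, filter_subset _ _,
    T'.filter fun y => ∀ u ∈ Y, ∀ u' ∈ Y, 3 * ρ ≤ ‖emb (y - u) - emb (t - u')‖,
    filter_subset _ _, ?_, ?_, P.group_miss hJ (fun y hy => hg y (hT' (mem_filter.1 hy).1)) ht⟩
  · have h2 := near_card P.n_pos Y T' t (s := 3 * ρ) (by nlinarith [P.rho_big]) hJ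
    have h3 := card_filter_add_card_filter_not (s := T')
      (fun y => ∀ u ∈ Y, ∀ u' ∈ Y, 3 * ρ ≤ ‖emb (y - u) - emb (t - u')‖)
    rw [← h3]
    push_cast
    linarith
  · intro a
    by_contra hcon
    push Not at hcon
    obtain ⟨⟨y, hy, C, hC, ha⟩, ⟨y', hy', C', hC', ha'⟩⟩ := hcon
    obtain ⟨u, hu, rfl⟩ := mem_caps hC
    obtain ⟨u', hu', rfl⟩ := mem_caps hC'
    have h2 := P.mem_cap (mem_rel.1 hu).2 ha
    have h3 := P.mem_cap (mem_rel.1 hu').2 ha'
    have h4 := (mem_filter.1 hy).2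
    have h5 := (mem_filter.1 hy').2 u' (mem_rel.1 hu').1 u (mem_rel.1 hu).1
    have h6 : emb (y' - u') - emb (t - u) =
        (emb a - emb (y - u)) - (emb a - emb (y' - u')) + (emb y - emb t) := by
      simp only [emb_sub]; abel
    have h7 := norm_add_le ((emb a - emb (y - u)) - (emb a - emb (y' - u'))) (emb y - emb t)
    have h8 := norm_sub_le (emb a - emb (y - u)) (emb a - emb (y' - u'))
    rw [h6] at h5
    linarith

end Vale.Agent.P230
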