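import Vale.Agent.P230.Body

/-! The total penalty is comparable to the volume of the ball. -/

namespace Vale.Agent.P230

open Finset

variable {n : ℕ} {R ρ D θ G J : ℝ}

lemma Par.R_big (P : Par n R ρ D θ G J) : 4 * (n : ℝ) ^ 2 ≤ R := by
  have := P.rho_big; have := P.rho_small; have := P.one_le; linarith

lemma Par.tail (P : Par n R ρ D θ G J) {t : ℝ} (ht : t ≤ R ^ 2 / 2) :
    (((K0 n R).filter fun v => t < dep R v).card : ℝ) ≤
      6 * (om n * R ^ n) * Real.exp (-(n * (t / (2 * R ^ 2)))) := by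
  have hR := P.R_pos
  have hn := P.one_le
  have hb := P.R_big
  have h1 := om_pos n
  set s := (8 * R * n - t) / (2 * R ^ 2) with hs
  have h2 : ((K0 n R).filter fun v => t < dep R v) ⊆ LB 0 (R * Real.exp s) := by
    intro v hv
    have h3 := (mem_filter.1 hv).2
    rw [mem_LB_zero]
    refine lt_of_pow_lt_pow_left₀ 2 (by positivity) ?_
    rw [mul_pow, ← Real.exp_nat_mul]
    have h4 := mul_le_mul_of_nonneg_left (Real.add_one_le_exp ((2 : ℕ) * s)) (sq_nonneg R)
    have h5 : R ^ 2 * ((2 : ℕ) * s + 1) = 8 * R * n - t + R ^ 2 := by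
      rw [hs]; push_cast; field_simp
    unfold dep at h3
    linarith
  have h3 : -(1 / 4) ≤ s := by
    rw [hs, le_div_iff₀ (by positivity)]
    nlinarith [mul_pos hR (show (0 : ℝ) < n by linarith)]
  have h4 : R / 2 ≤ R * Real.exp s := by
    have := Real.add_one_le_exp s
    nlinarith
  have h5 := card_LB_le (0 : En n) (r := R * Real.exp s) (by positivity) (by linarith)
  refine (Nat.cast_le.2 (card_le_card h2)).trans (h5.trans ?_)
  rw [mul_pow, ← Real.exp_nat_mul]
  have h6 : n * s = 4 * n ^ 2 / R + -(n * (t / (2 * R ^ 2))) := by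
    rw [hs]; field_simp; ring
  have h7 : Real.exp (4 * n ^ 2 / R) ≤ 3 :=
    (Real.exp_le_exp.2 ((div_le_one hR).2 hb)).trans (by linarith [Real.exp_one_lt_d9])
  rw [h6, Real.exp_add]
  calc 2 * (om n * (R ^ n * (Real.exp (4 * n ^ 2 / R) * Real.exp (-(n * (t / (2 * R ^ 2)))))))
      ≤ 2 * (om n * (R ^ n * (3 * Real.exp (-(n * (t / (2 * R ^ 2))))))) := by gcongr
    _ = _ := by ring

lemma Par.card_K0 (P : Par n R ρ D θ G J) : ((K0 n R).card : ℝ) ≤ 6 * (om n * R ^ n) := by
  have hR := P.R_pos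
  have hn := P.one_le
  have hb := P.R_big
  have h1 := om_pos n
  have h5 := card_LB_le (0 : En n) (r := R + 2 * n) (by positivity) (by nlinarith)
  refine h5.trans ?_
  have h6 := add_pow_le_exp hR (s := 2 * n) (by positivity) n
  have h7 : Real.exp (n * (2 * n / R)) ≤ 3 := by
    refine (Real.exp_le_exp.2 (?_ : _ ≤ (1 : ℝ))).trans (by linarith [Real.exp_one_lt_d9])
    rw [← mul_div_assoc, div_le_one hR]
    nlinarith
  calc 2 * (om n * (R + 2 * n) ^ n) ≤ 2 * (om n * (R ^ n * 3)) := by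
        gcongr
        exact h6.trans (by gcongr)
    _ = _ := by ring

lemma le_card_range_lt {s : ℝ} {N : ℕ} (h : s ≤ N) :
    s ≤ ∑ j ∈ range N, if (j : ℝ) < s then (1 : ℝ) else 0 := by
  induction N generalizing s with
  | zero => simpa using h
  | succ N ih =>
    rw [sum_range_succ]
    by_cases h1 : (N : ℝ) < s
    · rw [if_pos h1, sum_congr rfl (g := fun _ => (1 : ℝ))]
      · simpa using h
      · intro j hj
        have : (j : ℝ) < N := by exact_mod_cast mem_range.1 hj
        rw [if_pos (this.trans h1)]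
    · rw [if_neg h1, add_zero]
      exact ih (not_lt.1 h1)

lemma geom_le (N : ℕ) : ∑ j ∈ range N, (2 / 3 : ℝ) ^ j ≤ 3 := by
  have h : ∀ N : ℕ, ∑ j ∈ range N, (2 / 3 : ℝ) ^ j = 3 - 3 * (2 / 3) ^ N := by
    intro N
    induction N with
    | zero => simp
    | succ N ih => rw [sum_range_succ, ih]; ring
  rw [h]
  have : (0 : ℝ) ≤ (2 / 3) ^ N := by positivity
  linarith

lemma Par.sum_dep (P : Par n R ρ D θ G J) :
    ∑ v ∈ (K0 n R).filter (fun v => dep R v ≤ D), n * (dep R v / R ^ 2) ≤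
      18 * (om n * R ^ n) := by
  have hR := P.R_pos
  have hn := P.one_le
  have h1 := om_pos n
  set N := ⌈n * (D / R ^ 2)⌉₊ with hN
  have h2 : ∑ v ∈ (K0 n R).filter (fun v => dep R v ≤ D), n * (dep R v / R ^ 2) ≤
      ∑ v ∈ K0 n R, ∑ j ∈ range N, if (j : ℝ) < n * (dep R v / R ^ 2) then (1 : ℝ) else 0 := by
    refine le_trans (sum_le_sum fun v hv => le_card_range_lt (N := N) ?_)
      (sum_le_sum_of_subset_of_nonneg (filter_subset _ _)
        fun v _ _ => sum_nonneg fun j _ => by split_ifs <;> norm_num)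
    refine le_trans ?_ (Nat.le_ceil _)
    have := (mem_filter.1 hv).2
    gcongr
  refine h2.trans ?_
  rw [sum_comm]
  have h3 : ∀ j ∈ range N, ∑ v ∈ K0 n R, (if (j : ℝ) < n * (dep R v / R ^ 2) then (1 : ℝ) else 0) ≤
      6 * (om n * R ^ n) * (2 / 3) ^ j := by
    intro j hj
    have h4 : (j : ℝ) < n * (D / R ^ 2) := Nat.lt_ceil.1 (mem_range.1 hj)
    have h5 : j * R ^ 2 / n ≤ R ^ 2 / 2 := by
      have h6 : ρ ^ 2 ≤ R ^ 2 := pow_le_pow_left₀ P.rho_pos.le (by linarith [P.rho_small]) 2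
      have h7 := P.D_small
      rw [← mul_div_assoc, lt_div_iff₀ (by positivity)] at h4
      rw [div_le_iff₀ (by positivity)]
      nlinarith
    have h6 := P.tail h5
    have h7 : ∑ v ∈ K0 n R, (if (j : ℝ) < n * (dep R v / R ^ 2) then (1 : ℝ) else 0) =
        ((K0 n R).filter fun v => j * R ^ 2 / n < dep R v).card := by
      rw [card_filter]
      push_cast
      refine sum_congr rfl fun v _ => if_congr ?_ rfl rfl
      rw [← mul_div_assoc, lt_div_iff₀ (by positivity), div_lt_iff₀ (by positivity), mul_comm (n : ℝ)]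
    rw [h7]
    refine h6.trans (mul_le_mul_of_nonneg_left ?_ (by positivity))
    have h8 : -(n * (j * R ^ 2 / n / (2 * R ^ 2))) = j * (-(1 / 2) : ℝ) := by field_simp
    rw [h8, Real.exp_nat_mul]
    refine pow_le_pow_left₀ (Real.exp_pos _).le ?_ j
    rw [Real.exp_neg, inv_le_comm₀ (Real.exp_pos _) (by norm_num)]
    linarith [Real.add_one_le_exp (1 / 2)]
  refine (sum_le_sum h3).trans ?_
  rw [← mul_sum]
  have := mul_le_mul_of_nonneg_left (geom_le N) (show 0 ≤ 6 * (om n * R ^ n) by positivity)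
  linarith

lemma Par.sum_psi (P : Par n R ρ D θ G J) (hG : 0 < G) :
    ∑ v ∈ K0 n R, psi R ρ D G v ≤ om n * R ^ n *
      ((18 + 18 * (R ^ 2 / ρ ^ 2)) / G + 6 * Real.exp (-(n * (D / (2 * R ^ 2))))) := by
  have hR := P.R_pos
  have h0 := P.rho_pos
  have h1 := om_pos n
  rw [sum_congr rfl (g := fun v => if dep R v ≤ D then cost R ρ v / G else 1)
    fun v hv => by rw [psi, if_pos hv], sum_ite, ← sum_div]
  have h2 : ∑ v ∈ (K0 n R).filter (fun v => dep R v ≤ D), cost R ρ v ≤
      om n * R ^ n * (18 + 18 * (R ^ 2 / ρ ^ 2)) := by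
    have h3 : ∀ v : Zn n, cost R ρ v = 3 + (R ^ 2 / ρ ^ 2) * (n * (dep R v / R ^ 2)) := by
      intro v; unfold cost; field_simp
    simp only [h3]
    rw [sum_add_distrib, ← mul_sum, sum_const, nsmul_eq_mul]
    have h4 := mul_le_mul_of_nonneg_left P.sum_dep (show 0 ≤ R ^ 2 / ρ ^ 2 by positivity)
    have h5 : (((K0 n R).filter fun v => dep R v ≤ D).card : ℝ) ≤ 6 * (om n * R ^ n) :=
      (Nat.cast_le.2 (card_filter_le _ _)).trans P.card_K0
    linarith
  have h3 : D ≤ R ^ 2 / 2 := by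
    have h6 : ρ ^ 2 ≤ R ^ 2 := pow_le_pow_left₀ P.rho_pos.le
      (by linarith [P.rho_small, P.one_le]) 2
    linarith [P.D_small]
  have h4 := P.tail h3
  simp only [not_le, sum_const, nsmul_eq_mul, mul_one]
  have h5 := div_le_div_of_nonneg_right h2 hG.le
  rw [mul_div_assoc] at h5
  linarith

end Vale.Agent.P230
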