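import Vale.Agent.P230.Defs

/-! Lattice covering density and the worst-case covering densities. -/

namespace Vale.Agent.P230

open MeasureTheory Pointwise

/-- Lattice covering density. -/
noncomputable def thetaL {n : ℕ} (K : Set (EuclideanSpace ℝ (Fin n))) : ENNReal :=
  ⨅ (L : Submodule ℤ (EuclideanSpace ℝ (Fin n))) (_ : DiscreteTopology L) (_ : IsZLattice ℝ L)
    (_ : K + (L : Set (EuclideanSpace ℝ (Fin n))) = Set.univ),
    volume K / ENNReal.ofReal (ZLattice.covolume L volume)

/-- Supremum of the translative covering density over all convex bodies. -/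
noncomputable def ThetaT (n : ℕ) : ENNReal :=
  ⨆ (K : Set (EuclideanSpace ℝ (Fin n))) (_ : IsConvexBody K), thetaT K

/-- Supremum of the lattice covering density over all convex bodies. -/
noncomputable def ThetaL (n : ℕ) : ENNReal :=
  ⨆ (K : Set (EuclideanSpace ℝ (Fin n))) (_ : IsConvexBody K), thetaL K

end Vale.Agent.P230
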