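import Vale.Agent.P230.Average

/-! Choice of the parameters. -/

namespace Vale.Agent.P230

open Finset

lemma mul_exp_neg_le {x a : ℝ} (k : ℕ) (hx : 0 ≤ x) (h : a * k.factorial ≤ x ^ k) :
    a * Real.exp (-x) ≤ 1 := by
  have h1 := Real.pow_div_factorial_le_exp x hx k
  have h2 : (0 : ℝ) < k.factorial := by exact_mod_cast k.factorial_pos
  have h3 : a ≤ Real.exp x := le_trans ((le_div_iff₀ h2).2 h) h1
  rw [Real.exp_neg, ← div_eq_mul_inv, div_le_one (Real.exp_pos _)]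
  exact h3

lemma three_quarters_pow (m : ℕ) : (3 / 4 : ℝ) ^ m ≤ Real.exp (-(m / 4)) := by
  rw [show -((m : ℝ) / 4) = m * (-(1 / 4)) by ring, Real.exp_nat_mul]
  exact pow_le_pow_left₀ (by norm_num) (by linarith [Real.add_one_le_exp (-(1 / 4) : ℝ)]) m

lemma par_ok {n : ℕ} {w : ℝ} (hw : 10 ^ 10 ≤ w) (hn : (n : ℝ) = w ^ 8) :
    Par n ((400 * n ^ 3 : ℕ) : ℝ) ((n : ℝ) ^ 3) (((n : ℝ) ^ 3 / w ^ 2) ^ 2 / 24)
      ((n : ℝ) ^ 3 / w ^ 2) (n * Real.log n / 16) ((4 ^ n : ℕ) : ℝ) := by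
  have hw0 : 0 < w := by linarith
  have hw1 : 1 ≤ w := by linarith
  have hw2 : 1 ≤ w ^ 2 := one_le_pow₀ hw1
  have hw4 : (10 ^ 10) ^ 4 ≤ w ^ 4 := pow_le_pow_left₀ (by norm_num) hw 4
  have hn4 : (4 : ℝ) ≤ n := by
    rw [hn]; exact le_trans (by linarith) (le_self_pow₀ hw1 (by norm_num))
  have hn0 : (0 : ℝ) < n := by linarith
  have hlog : Real.log n ≤ n := by linarith [Real.log_le_sub_one_of_pos hn0]
  have hlog0 : 0 ≤ Real.log n := Real.log_nonneg (by linarith)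
  have hth : (n : ℝ) ^ 3 / w ^ 2 ≤ n ^ 3 := div_le_self (by positivity) hw2
  refine ⟨by exact_mod_cast (show (1 : ℝ) ≤ n by linarith), by nlinarith, ?_, ?_, by ring, hth,
    ?_, ?_, ?_⟩
  · push_cast
    have : (n : ℝ) ≤ n ^ 3 := le_self_pow₀ (by linarith) (by norm_num)
    linarith
  · have := pow_le_pow_left₀ (by positivity) hth 2
    have h0 : 0 ≤ ((n : ℝ) ^ 3) ^ 2 := by positivity
    linarith
  · rw [le_div_iff₀ (by positivity)]
    have h1 : 2 * w ^ 2 ≤ n := by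
      rw [hn]
      have : 2 ≤ w ^ 6 := le_trans (by linarith) (le_self_pow₀ hw1 (by norm_num))
      nlinarith
    nlinarith
  · have h1 : (n : ℝ) * (((n : ℝ) ^ 3 / w ^ 2) ^ 2 / 24 / ((n : ℝ) ^ 3) ^ 2) = w ^ 4 / 24 := by
      field_simp
      rw [hn]
    rw [h1]
    have h2 := mul_exp_neg_le (x := w ^ 4 / 24) (a := 32 * w ^ 32) 9 (by positivity) (by
      have : (w ^ 4 / 24) ^ 9 = w ^ 32 * (w ^ 4 / 24 ^ 9) := by ring
      rw [this, mul_right_comm, mul_comm]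
      refine mul_le_mul_of_nonneg_left ?_ (by positivity)
      norm_num [Nat.factorial] at hw4 ⊢
      linarith)
    have h3 : n * Real.log n / 16 ≤ w ^ 16 := by
      have : w ^ 16 = n * n := by rw [hn]; ring
      rw [this]; nlinarith
    refine le_trans ?_ h2
    calc n * Real.log n / 16 * (n * Real.log n / 16 * (32 * Real.exp (-(w ^ 4 / 24))))
        ≤ w ^ 16 * (w ^ 16 * (32 * Real.exp (-(w ^ 4 / 24)))) := by gcongr
      _ = _ := by ring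
  · have h1 : Real.exp (2 * (n * Real.log n / 16)) = w ^ n := by
      have : Real.log n = 8 * Real.log w := by rw [hn, Real.log_pow]; norm_num
      rw [this, show 2 * (n * (8 * Real.log w) / 16) = n * Real.log w by ring, Real.exp_nat_mul,
        Real.exp_log hw0]
    rw [h1, le_div_iff₀ (by positivity)]
    have h2 : (((4 ^ n : ℕ) : ℝ)) ^ 2 * (2 * ((n : ℝ) ^ 3 / w ^ 2) ^ n) * w ^ n * (32 * 2 ^ n) =
        ((n : ℝ) ^ 3) ^ n * (64 * (32 / w) ^ n) := by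
      push_cast
      have e1 : ((4 : ℝ) ^ n) ^ 2 = 16 ^ n := by rw [← pow_mul, mul_comm, pow_mul]; norm_num
      have e2 : (32 : ℝ) ^ n = 16 ^ n * 2 ^ n := by rw [← mul_pow]; norm_num
      have e3 : (w ^ 2) ^ n = w ^ n * w ^ n := by rw [← mul_pow, sq]
      rw [e1, div_pow, div_pow, e2, e3]
      field_simp
      ring
    rw [h2]
    refine mul_le_of_le_one_right (by positivity) ?_
    have h3 : 32 / w ≤ 1 / 64 := by rw [div_le_iff₀ hw0]; linarith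
    have h4 : (32 / w) ^ n ≤ 32 / w :=
      pow_le_of_le_one (by positivity) (by linarith) (by
        have : 0 < n := by exact_mod_cast hn0
        omega)
    linarith

lemma M_ok {n : ℕ} (hn : (100 : ℝ) ≤ n) :
    ((7 ^ n : ℕ) : ℝ) * (((4 ^ n : ℕ) : ℝ) ^ 2 * (16 * (3 * (n : ℝ) ^ 3) ^ n)) ≤
      ((400 * n ^ 3 : ℕ) : ℝ) ^ n := by
  push_cast
  have e1 : ((4 : ℝ) ^ n) ^ 2 = 16 ^ n := by rw [← pow_mul, mul_comm, pow_mul]; norm_num
  have e2 : (336 : ℝ) ^ n = 7 ^ n * 16 ^ n * 3 ^ n := by rw [← mul_pow, ← mul_pow]; norm_num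
  have e3 : (400 : ℝ) ^ n = (1 + 4 / 21) ^ n * 336 ^ n := by rw [← mul_pow]; norm_num
  have h1 := one_add_mul_le_pow (show (-2 : ℝ) ≤ 4 / 21 by norm_num) n
  have h2 : 16 ≤ (1 + 4 / 21 : ℝ) ^ n := by linarith
  rw [e1, mul_pow, mul_pow, e3]
  calc (7 : ℝ) ^ n * (16 ^ n * (16 * (3 ^ n * ((n : ℝ) ^ 3) ^ n)))
      = 16 * 336 ^ n * ((n : ℝ) ^ 3) ^ n := by rw [e2]; ring
    _ ≤ _ := by gcongr

lemma U_ok {n : ℕ} (hn : (10 ^ 8 : ℝ) ≤ n) :
    (((6 * (400 * n ^ 3) + 1) ^ n + 1 : ℕ) : ℝ) ^ (4 ^ n) * (3 / 4) ^ (7 ^ n) < 1 / 4 := by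
  have hn1 : (1 : ℝ) ≤ n := by linarith
  have h1 : (((6 * (400 * n ^ 3) + 1) ^ n + 1 : ℕ) : ℝ) ≤ Real.exp (2401 * n ^ 4) := by
    push_cast
    have h2 : (6 * (400 * (n : ℝ) ^ 3) + 1) ^ n ≤ Real.exp (2400 * n ^ 4) := by
      rw [show 2400 * (n : ℝ) ^ 4 = n * (6 * (400 * n ^ 3)) by ring, Real.exp_nat_mul]
      exact pow_le_pow_left₀ (by positivity) (Real.add_one_le_exp _) n
    have h3 : 1 ≤ Real.exp (2400 * n ^ 4) := Real.one_le_exp (by positivity)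
    have h4 : 2 ≤ Real.exp (n ^ 4) := by
      have := Real.add_one_le_exp ((n : ℝ) ^ 4)
      have : 1 ≤ (n : ℝ) ^ 4 := one_le_pow₀ hn1
      linarith
    rw [show 2401 * (n : ℝ) ^ 4 = 2400 * n ^ 4 + n ^ 4 by ring, Real.exp_add]
    nlinarith
  have h2 := pow_le_pow_left₀ (by positivity) h1 (4 ^ n)
  rw [← Real.exp_nat_mul] at h2
  have h3 := three_quarters_pow (7 ^ n)
  refine lt_of_le_of_lt (mul_le_mul h2 h3 (by positivity) (by positivity)) ?_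
  rw [← Real.exp_add]
  have h4 : Real.exp (1 / 2) ≤ 7 / 4 := by
    have h1 : Real.exp (1 / 2) ^ 2 = Real.exp 1 := by
      rw [← Real.exp_nat_mul]; norm_num
    have h2 := Real.exp_one_lt_d9
    nlinarith [Real.exp_pos (1 / 2)]
  have h5 : 9612 * (n : ℝ) ^ 4 ≤ (7 / 4) ^ n := by
    have h6 := Real.pow_div_factorial_le_exp ((n : ℝ) * (1 / 2)) (by positivity) 5
    rw [Real.exp_nat_mul] at h6
    refine le_trans ?_ (h6.trans (pow_le_pow_left₀ (Real.exp_pos _).le h4 n))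
    have : ((n : ℝ) * (1 / 2)) ^ 5 / (Nat.factorial 5 : ℕ) = n ^ 4 * (n / 3840) := by
      norm_num [Nat.factorial]; ring
    rw [this, mul_comm]
    refine mul_le_mul_of_nonneg_left ?_ (by positivity)
    linarith
  have h6 : (7 : ℝ) ^ n = (7 / 4) ^ n * 4 ^ n := by rw [← mul_pow]; norm_num
  have h7 : (1 : ℝ) ≤ 4 ^ n := one_le_pow₀ (by norm_num)
  have h8 : (1 : ℝ) ≤ n ^ 4 := one_le_pow₀ hn1
  have h9 : ((4 ^ n : ℕ) : ℝ) * (2401 * n ^ 4) + -(((7 ^ n : ℕ) : ℝ) / 4) ≤ -2 := by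
    push_cast
    rw [h6]
    have e1 := mul_le_mul_of_nonneg_right h5 (show (0 : ℝ) ≤ 4 ^ n by positivity)
    have e2 : (1 : ℝ) ≤ n ^ 4 * 4 ^ n := one_le_mul_of_one_le_of_one_le h8 h7
    nlinarith
  refine lt_of_le_of_lt (Real.exp_le_exp.2 h9) ?_
  rw [Real.exp_neg, inv_lt_comm₀ (Real.exp_pos _) (by norm_num)]
  have := Real.quadratic_le_exp_of_nonneg (show (0 : ℝ) ≤ 2 by norm_num)
  linarith

lemma kappa_ok {n : ℕ} {w : ℝ} (hw : 10 ^ 10 ≤ w) (hn : (n : ℝ) = w ^ 8) :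
    2 * (n * Real.log n / 16 / (12 * 2880018)) * (2 * 3 ^ n / ((4 ^ n : ℕ) : ℝ) +
      ((18 + 18 * (((400 * n ^ 3 : ℕ) : ℝ) ^ 2 / ((n : ℝ) ^ 3) ^ 2)) / (n * Real.log n / 16) +
      6 * Real.exp (-(n * (((n : ℝ) ^ 3 / w ^ 2) ^ 2 / 24 /
        (2 * ((400 * n ^ 3 : ℕ) : ℝ) ^ 2)))))) ≤ 1 / 2 := by
  have hw0 : 0 < w := by linarith
  have hw1 : 1 ≤ w := by linarith
  have hw4 : (10 ^ 10) ^ 4 ≤ w ^ 4 := pow_le_pow_left₀ (by norm_num) hw 4
  have hn4 : (10 ^ 10 : ℝ) ≤ n := by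
    rw [hn]; exact le_trans hw (le_self_pow₀ hw1 (by norm_num))
  have hn0 : (0 : ℝ) < n := by linarith
  have hlog : Real.log n ≤ n := by linarith [Real.log_le_sub_one_of_pos hn0]
  have hlog0 : 0 < Real.log n := Real.log_pos (by linarith)
  have h1 : (n : ℝ) * (((n : ℝ) ^ 3 / w ^ 2) ^ 2 / 24 / (2 * ((400 * n ^ 3 : ℕ) : ℝ) ^ 2)) =
      w ^ 4 / 7680000 := by
    push_cast
    field_simp
    rw [hn]; ring
  have h2 : ((400 * n ^ 3 : ℕ) : ℝ) ^ 2 / ((n : ℝ) ^ 3) ^ 2 = 160000 := by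
    push_cast
    field_simp
    ring
  rw [h1, h2]
  set κ := n * Real.log n / 16 / (12 * 2880018) with hκ
  have hκ1 : κ ≤ n ^ 2 := by rw [hκ]; nlinarith
  have hκ0 : 0 ≤ κ := by positivity
  have h3 : 2 * κ * ((18 + 18 * 160000) / (n * Real.log n / 16)) = 1 / 6 := by
    rw [hκ]; field_simp; ring
  have h4 : 2 * κ * (2 * 3 ^ n / ((4 ^ n : ℕ) : ℝ)) ≤ 1 / 6 := by
    have e1 := three_quarters_pow n
    have e2 := mul_exp_neg_le (x := n / 4) (a := 24 * n ^ 2) 3 (by positivity) (by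
      norm_num [Nat.factorial]
      nlinarith)
    have e3 : 2 * κ * (2 * 3 ^ n / ((4 ^ n : ℕ) : ℝ)) = 4 * (κ * (3 / 4) ^ n) := by
      push_cast; rw [div_pow]; ring
    have e4 : κ * (3 / 4) ^ n ≤ n ^ 2 * Real.exp (-(n / 4)) := by gcongr
    linarith
  have h5 : 2 * κ * (6 * Real.exp (-(w ^ 4 / 7680000))) ≤ 1 / 6 := by
    have e2 := mul_exp_neg_le (x := w ^ 4 / 7680000) (a := 72 * w ^ 16) 5 (by positivity) (by
      have : (w ^ 4 / 7680000) ^ 5 = w ^ 16 * (w ^ 4 / 7680000 ^ 5) := by ring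
      rw [this, mul_right_comm, mul_comm]
      refine mul_le_mul_of_nonneg_left ?_ (by positivity)
      norm_num [Nat.factorial] at hw4 ⊢
      linarith)
    have e3 : (n : ℝ) ^ 2 = w ^ 16 := by rw [hn]; ring
    have e4 : κ * Real.exp (-(w ^ 4 / 7680000)) ≤ w ^ 16 * Real.exp (-(w ^ 4 / 7680000)) := by
      rw [← e3]; gcongr
    linarith
  rw [mul_add, mul_add]
  linarith

theorem lower_bound : ∃ c : ℝ, 0 < c ∧ ∃ n₀ : ℕ, ∀ n ≥ n₀, ∃ K : Set (En n),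
    IsConvexBody K ∧ ENNReal.ofReal (c * n * Real.log n) ≤ thetaT K := by
  refine ⟨1 / (16 * (12 * 2880018) * 16), by norm_num, 10 ^ 80, fun n hn => ?_⟩
  have hn' : (10 ^ 80 : ℝ) ≤ n := by exact_mod_cast hn
  have hn0 : (0 : ℝ) < n := by linarith
  set w : ℝ := (n : ℝ) ^ ((8 : ℕ) : ℝ)⁻¹ with hwdef
  have hw8 : (n : ℝ) = w ^ 8 := (Real.rpow_inv_natCast_pow hn0.le (by norm_num)).symm
  have hw : 10 ^ 10 ≤ w := by
    refine le_of_pow_le_pow_left₀ (n := 8) (by norm_num) (by positivity) ?_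
    rw [← hw8]; linarith
  have hlog0 : 0 < Real.log n := Real.log_pos (by linarith)
  obtain ⟨K, hK, h⟩ := (par_ok hw hw8).lower (by push_cast; nlinarith) (by positivity)
    (by positivity) (7 ^ n) (M_ok (by linarith)) (U_ok (by linarith))
    (κ := n * Real.log n / 16 / (12 * 2880018)) (by positivity) (kappa_ok hw hw8)
  refine ⟨K, hK, le_trans (le_of_eq ?_) h⟩
  congr 1
  ring

end Vale.Agent.P230
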