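import Vale.Agent.P230.Prob

/-! The random greedy hitting set of a list of finite sets, as a linear functional. -/

namespace Vale.Agent.P230

open Finset

variable {α : Type*} [DecidableEq α]

/-- One greedy step: if `C` is already hit do nothing, else add a uniform point of `C`. -/
noncomputable def step (C : Finset α) : (Finset α → ℝ) →ₗ[ℝ] (Finset α → ℝ) where
  toFun f τ := if (C ∩ τ).Nonempty then f τ else (∑ u ∈ C, f (insert u τ)) / C.card
  map_add' f g := by
    funext τ
    simp only [Pi.add_apply]
    split_ifs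
    · rfl
    · rw [sum_add_distrib, add_div]
  map_smul' c f := by
    funext τ
    simp only [Pi.smul_apply, smul_eq_mul, RingHom.id_apply]
    split_ifs
    · rfl
    · rw [← mul_sum, mul_div_assoc]

lemma step_apply (C : Finset α) (f : Finset α → ℝ) (τ : Finset α) :
    step C f τ = if (C ∩ τ).Nonempty then f τ else (∑ u ∈ C, f (insert u τ)) / C.card := rfl

/-- Expectation over the greedy hitting set (the head of the list is processed last). -/
noncomputable def Gr : List (Finset α) → (Finset α → ℝ) →ₗ[ℝ] ℝ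
  | [] => LinearMap.proj ∅
  | C :: l => Gr l ∘ₗ step C

lemma Gr_nil (f : Finset α → ℝ) : Gr [] f = f ∅ := rfl

lemma Gr_cons (C : Finset α) (l : List (Finset α)) (f : Finset α → ℝ) :
    Gr (C :: l) f = Gr l (step C f) := rfl

lemma Gr_mono' (l : List (Finset α)) {f g : Finset α → ℝ} (h : ∀ τ, f τ ≤ g τ) :
    Gr l f ≤ Gr l g := by
  induction l generalizing f g with
  | nil => exact h _
  | cons C l ih =>
    rw [Gr_cons, Gr_cons]
    refine ih fun τ => ?_
    rw [step_apply, step_apply]
    split_ifs
    · exact h _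
    · exact div_le_div_of_nonneg_right (sum_le_sum fun u _ => h _) (Nat.cast_nonneg _)

/-- The sets that the greedy procedure can output. -/
def Inv (l : List (Finset α)) (U τ : Finset α) : Prop :=
  τ ⊆ U ∧ τ.card ≤ l.length ∧ ∀ C ∈ l, (C ∩ τ).Nonempty

lemma Gr_mono (l : List (Finset α)) (U : Finset α) (hl : ∀ C ∈ l, C ⊆ U)
    {f g : Finset α → ℝ} (h : ∀ τ, Inv l U τ → f τ ≤ g τ) : Gr l f ≤ Gr l g := by
  induction l generalizing f g with
  | nil => exact h _ ⟨empty_subset _, le_rfl, by simp⟩
  | cons C l ih =>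
    rw [Gr_cons, Gr_cons]
    refine ih (fun D hD => hl D (List.mem_cons_of_mem _ hD)) fun τ hτ => ?_
    obtain ⟨h1, h2, h3⟩ := hτ
    rw [step_apply, step_apply]
    split_ifs with hc
    · refine h _ ⟨h1, by simp only [List.length_cons]; omega, fun D hD => ?_⟩
      rcases List.mem_cons.1 hD with rfl | hD
      · exact hc
      · exact h3 D hD
    · refine div_le_div_of_nonneg_right (sum_le_sum fun u hu => h _ ⟨?_, ?_, fun D hD => ?_⟩)
        (Nat.cast_nonneg _)
      · exact insert_subset (hl C List.mem_cons_self hu) h1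
      · have := card_insert_le u τ
        simp only [List.length_cons]; omega
      · rcases List.mem_cons.1 hD with rfl | hD
        · exact ⟨u, mem_inter.2 ⟨hu, mem_insert_self _ _⟩⟩
        · exact (h3 D hD).mono (inter_subset_inter_left (subset_insert _ _))

lemma Gr_congr (l : List (Finset α)) (U : Finset α) (hl : ∀ C ∈ l, C ⊆ U)
    {f g : Finset α → ℝ} (h : ∀ τ, Inv l U τ → f τ = g τ) : Gr l f = Gr l g :=
  le_antisymm (Gr_mono l U hl fun τ hτ => (h τ hτ).le) (Gr_mono l U hl fun τ hτ => (h τ hτ).ge)

lemma Gr_const (l : List (Finset α)) (hl : ∀ C ∈ l, C.Nonempty) (c : ℝ) :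
    Gr l (fun _ => c) = c := by
  induction l with
  | nil => rfl
  | cons C l ih =>
    rw [Gr_cons]
    have : step C (fun _ => c) = fun _ => c := by
      funext τ
      rw [step_apply]
      split_ifs
      · rfl
      · have : (C.card : ℝ) ≠ 0 := by
          exact_mod_cast (card_pos.2 (hl C List.mem_cons_self)).ne'
        simp only [sum_const, nsmul_eq_mul]
        field_simp
    rw [this, ih fun D hD => hl D (List.mem_cons_of_mem _ hD)]

lemma Gr_zero (l : List (Finset α)) : Gr l (fun _ => 0) = 0 := map_zero (Gr l)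

lemma Gr_const_mul (l : List (Finset α)) (c : ℝ) (f : Finset α → ℝ) :
    Gr l (fun τ => c * f τ) = c * Gr l f := map_smul (Gr l) c f

lemma Gr_add (l : List (Finset α)) (f g : Finset α → ℝ) :
    Gr l (fun τ => f τ + g τ) = Gr l f + Gr l g := map_add (Gr l) f g

lemma Gr_sum {ι : Type*} (l : List (Finset α)) (s : Finset ι) (f : ι → Finset α → ℝ) :
    Gr l (fun τ => ∑ i ∈ s, f i τ) = ∑ i ∈ s, Gr l (f i) := by
  rw [← map_sum]
  congr 1
  funext τ
  simp

lemma Ex_Gr (q : ℝ) (U : Finset α) (l : List (Finset α)) (φ : Finset α → Finset α → ℝ) :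
    Ex q U (fun F => Gr l (φ F)) = Gr l (fun τ => Ex q U (fun F => φ F τ)) := by
  unfold Ex
  rw [Gr_sum]
  exact sum_congr rfl fun F _ => (Gr_const_mul l _ _).symm

/-- Indicator of containing `σ`. -/
noncomputable def ind (σ : Finset α) (τ : Finset α) : ℝ := if σ ⊆ τ then 1 else 0

lemma ind_nonneg (σ τ : Finset α) : 0 ≤ ind σ τ := by
  unfold ind; split_ifs <;> norm_num

lemma ind_le_one (σ τ : Finset α) : ind σ τ ≤ 1 := by
  unfold ind; split_ifs <;> norm_num

lemma step_ind_key {C σ τ : Finset α} (hc : ¬ (C ∩ τ).Nonempty) (hs : ¬ σ ⊆ τ) {v : α}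
    (hv : v ∈ C) (h : σ ⊆ insert v τ) : σ ∩ C = {v} ∧ σ.erase v ⊆ τ := by
  refine ⟨?_, subset_insert_iff.1 h⟩
  ext w
  simp only [mem_inter, mem_singleton]
  constructor
  · rintro ⟨h1, h2⟩
    rcases mem_insert.1 (h h1) with h3 | h3
    · exact h3
    · exact absurd ⟨w, mem_inter.2 ⟨h2, h3⟩⟩ hc
  · rintro rfl
    refine ⟨?_, hv⟩
    by_contra h1
    exact hs ((subset_insert_iff_of_notMem h1).1 h)

lemma step_ind_of_subset {C σ τ : Finset α} (hs : σ ⊆ τ) : step C (ind σ) τ ≤ ind σ τ := by
  rw [step_apply]
  split_ifs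
  · exact le_rfl
  · have h1 : ind σ τ = 1 := by simp [ind, hs]
    rw [h1]
    refine div_le_one_of_le₀ ?_ (Nat.cast_nonneg _)
    calc ∑ u ∈ C, ind σ (insert u τ) ≤ ∑ u ∈ C, (1 : ℝ) := sum_le_sum fun u _ => ind_le_one _ _
      _ = C.card := by simp

lemma step_ind_one {C σ : Finset α} {u : α} (hu : σ ∩ C = {u}) (τ : Finset α) :
    step C (ind σ) τ ≤ ind σ τ + (1 / C.card) * ind (σ.erase u) τ := by
  have h0 : 0 ≤ (1 / C.card : ℝ) * ind (σ.erase u) τ :=
    mul_nonneg (by positivity) (ind_nonneg _ _)
  by_cases hs : σ ⊆ τ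
  · linarith [step_ind_of_subset (C := C) hs]
  · rw [step_apply]
    split_ifs with hc
    · linarith
    · have h1 : ind σ τ = 0 := by simp [ind, hs]
      have huC : u ∈ C := by
        have : u ∈ σ ∩ C := by rw [hu]; exact mem_singleton_self _
        exact (mem_inter.1 this).2
      rw [h1, zero_add, sum_eq_single u, one_div, div_eq_inv_mul]
      · refine mul_le_mul_of_nonneg_left (le_of_eq ?_) (by positivity)
        simp only [ind, subset_insert_iff]
      · intro v hv hvu
        unfold ind
        split_ifs with h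
        · have := (step_ind_key hc hs hv h).1
          rw [hu] at this
          exact absurd (singleton_injective this).symm hvu
        · rfl
      · intro h; exact absurd huC h

lemma step_ind_not {C σ : Finset α} (hu : ∀ u, σ ∩ C ≠ {u}) (τ : Finset α) :
    step C (ind σ) τ ≤ ind σ τ := by
  by_cases hs : σ ⊆ τ
  · exact step_ind_of_subset hs
  · rw [step_apply]
    split_ifs with hc
    · exact le_rfl
    · have h1 : ind σ τ = 0 := by simp [ind, hs]
      rw [h1, sum_eq_zero, zero_div]
      intro v hv
      unfold ind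
      split_ifs with h
      · exact absurd (step_ind_key hc hs hv h).1 (hu v)
      · rfl

lemma Gr_ind_le_a {q : ℝ} (hq : 0 < q) (l : List (Finset α)) (σ : Finset α) :
    Gr l (ind σ) ≤ q ^ σ.card * (l.map fun C => 1 + 1 / (q * C.card)).prod := by
  induction l generalizing σ with
  | nil =>
    rw [Gr_nil]
    unfold ind
    split_ifs with h
    · rw [subset_empty.1 h]; simp
    · simp only [List.map_nil, List.prod_nil]; positivity
  | cons C l ih =>
    have hP : 0 ≤ (l.map fun C => 1 + 1 / (q * C.card)).prod := by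
      refine List.prod_nonneg fun x hx => ?_
      obtain ⟨D, _, rfl⟩ := List.mem_map.1 hx
      positivity
    rw [Gr_cons, List.map_cons, List.prod_cons]
    by_cases hu : ∃ u, σ ∩ C = {u}
    · obtain ⟨u, hu⟩ := hu
      have huσ : u ∈ σ := by
        have : u ∈ σ ∩ C := by rw [hu]; exact mem_singleton_self _
        exact (mem_inter.1 this).1
      refine (Gr_mono' l (step_ind_one hu)).trans ?_
      rw [Gr_add, Gr_const_mul]
      have h1 := ih σ
      have h2 := mul_le_mul_of_nonneg_left (ih (σ.erase u))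
        (show (0 : ℝ) ≤ 1 / C.card by positivity)
      refine (add_le_add h1 h2).trans (le_of_eq ?_)
      rw [← card_erase_add_one huσ]
      generalize (l.map fun C => 1 + 1 / (q * C.card)).prod = P
      field_simp
      ring
    · push Not at hu
      refine (Gr_mono' l (step_ind_not hu)).trans ((ih σ).trans ?_)
      refine mul_le_mul_of_nonneg_left ?_ (by positivity)
      refine le_mul_of_one_le_left hP ?_
      have : 0 ≤ 1 / (q * C.card) := by positivity
      linarith

/-- Total chance that `u` is picked, bounded crudely. -/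
noncomputable def mass (l : List (Finset α)) (u : α) : ℝ :=
  (l.map fun C => if u ∈ C then (1 / C.card : ℝ) else 0).sum

lemma mass_nonneg (l : List (Finset α)) (u : α) : 0 ≤ mass l u := by
  refine List.sum_nonneg fun x hx => ?_
  obtain ⟨D, _, rfl⟩ := List.mem_map.1 hx
  split_ifs <;> positivity

lemma mass_cons (C : Finset α) (l : List (Finset α)) (u : α) :
    mass (C :: l) u = (if u ∈ C then (1 / C.card : ℝ) else 0) + mass l u := by
  simp [mass]

lemma Gr_ind_le_b (l : List (Finset α)) (σ : Finset α) :
    Gr l (ind σ) ≤ ∏ u ∈ σ, mass l u := by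
  induction l generalizing σ with
  | nil =>
    rw [Gr_nil]
    unfold ind
    split_ifs with h
    · rw [subset_empty.1 h]; simp
    · exact prod_nonneg fun u _ => mass_nonneg _ _
  | cons C l ih =>
    have hm : ∀ v, mass l v ≤ mass (C :: l) v := by
      intro v
      rw [mass_cons]
      have : (0 : ℝ) ≤ if v ∈ C then (1 / C.card : ℝ) else 0 := by split_ifs <;> positivity
      linarith
    rw [Gr_cons]
    by_cases hu : ∃ u, σ ∩ C = {u}
    · obtain ⟨u, hu⟩ := hu
      have huσ : u ∈ σ ∩ C := by rw [hu]; exact mem_singleton_self _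
      refine (Gr_mono' l (step_ind_one hu)).trans ?_
      rw [Gr_add, Gr_const_mul]
      have h1 := ih σ
      have h2 := mul_le_mul_of_nonneg_left (ih (σ.erase u))
        (show (0 : ℝ) ≤ 1 / C.card by positivity)
      refine (add_le_add h1 h2).trans ?_
      rw [← mul_prod_erase σ _ (mem_inter.1 huσ).1, ← mul_prod_erase σ _ (mem_inter.1 huσ).1,
        ← add_mul, mass_cons C l u, if_pos (mem_inter.1 huσ).2, add_comm]
      refine mul_le_mul_of_nonneg_left
        (prod_le_prod (fun v _ => mass_nonneg _ _) fun v _ => hm v) ?_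
      have := mass_nonneg l u
      positivity
    · push Not at hu
      exact (Gr_mono' l (step_ind_not hu)).trans ((ih σ).trans
        (prod_le_prod (fun v _ => mass_nonneg _ _) fun v _ => hm v))

lemma Gr_prod_le (l : List (Finset α)) (g : α → ℝ) (hg : ∀ u, 0 ≤ g u) :
    Gr l (fun τ => ∏ u ∈ τ, (1 + g u)) ≤
      Real.exp (l.map fun C => (∑ u ∈ C, g u) / C.card).sum := by
  induction l with
  | nil => simp [Gr_nil]
  | cons C l ih =>
    rw [Gr_cons, List.map_cons, List.sum_cons, Real.exp_add]
    have ha : 0 ≤ (∑ u ∈ C, g u) / C.card :=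
      div_nonneg (sum_nonneg fun u _ => hg u) (Nat.cast_nonneg _)
    have he : 1 + (∑ u ∈ C, g u) / C.card ≤ Real.exp ((∑ u ∈ C, g u) / C.card) := by
      linarith [Real.add_one_le_exp ((∑ u ∈ C, g u) / C.card)]
    have h1 : ∀ τ, step C (fun τ => ∏ u ∈ τ, (1 + g u)) τ ≤
        Real.exp ((∑ u ∈ C, g u) / C.card) * ∏ u ∈ τ, (1 + g u) := by
      intro τ
      have hP : 0 ≤ ∏ u ∈ τ, (1 + g u) := prod_nonneg fun u _ => by linarith [hg u]
      rw [step_apply]
      split_ifs with hc
      · exact le_mul_of_one_le_left hP (by linarith)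
      · refine le_trans ?_ (mul_le_mul_of_nonneg_right he hP)
        have h2 : ∑ u ∈ C, ∏ v ∈ insert u τ, (1 + g v) =
            (C.card + ∑ u ∈ C, g u) * ∏ u ∈ τ, (1 + g u) := by
          rw [sum_congr rfl (g := fun u => (1 + g u) * ∏ u ∈ τ, (1 + g u))]
          · rw [← sum_mul, sum_add_distrib]; simp
          · intro u hu
            exact prod_insert fun h => hc ⟨u, mem_inter.2 ⟨hu, h⟩⟩
        rw [h2]
        rcases Nat.eq_zero_or_pos C.card with h0 | h0
        · rw [h0]; simpa using hP
        · have : (C.card : ℝ) ≠ 0 := by exact_mod_cast h0.ne'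
          apply le_of_eq
          field_simp
    refine (Gr_mono' l h1).trans ?_
    rw [Gr_const_mul]
    exact mul_le_mul_of_nonneg_left ih (Real.exp_pos _).le

end Vale.Agent.P230
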