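import Vale.Agent.P230.Average
import Vale.Agent.P230.Defs2

/-! Packing bounds, and the comparison of the two covering densities. -/

namespace Vale.Agent.P230

open Finset Filter MeasureTheory Pointwise Topology

variable {n : ℕ}

lemma cube_eq (n : ℕ) (R : ℝ) : cube n R =
    WithLp.ofLp ⁻¹' (Set.univ.pi fun _ : Fin n => Set.Icc (-R) R) := by
  ext x
  simp only [cube, abs_le, Set.mem_ofPred_eq, Set.mem_preimage, Set.mem_pi, Set.mem_univ,
    true_imp_iff, Set.mem_Icc]

lemma measurableSet_cube (n : ℕ) (R : ℝ) : MeasurableSet (cube n R) := by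
  rw [cube_eq]
  exact (PiLp.volume_preserving_ofLp (Fin n)).measurable
    (MeasurableSet.univ_pi fun i => measurableSet_Icc)

lemma volume_cube (n : ℕ) {R : ℝ} (hR : 0 ≤ R) :
    volume (cube n R) = ENNReal.ofReal ((2 * R) ^ n) := by
  rw [cube_eq, (PiLp.volume_preserving_ofLp (Fin n)).measure_preimage
    (MeasurableSet.univ_pi fun i => measurableSet_Icc).nullMeasurableSet, volume_pi_pi]
  simp only [Real.volume_Icc, prod_const, card_univ, Fintype.card_fin]
  rw [ENNReal.ofReal_pow (by positivity)]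
  congr 2
  ring

lemma exists_cube_of_bounded {F : Set (En n)} (hF : Bornology.IsBounded F) :
    ∃ D, 0 ≤ D ∧ F ⊆ cube n D := by
  obtain ⟨D, hD⟩ := hF.subset_closedBall (0 : En n)
  refine ⟨|D|, abs_nonneg _, fun x hx i => ?_⟩
  have h1 : ‖x i‖ ≤ ‖x‖ := PiLp.norm_apply_le _ _
  have h2 := mem_closedBall_zero_iff.1 (hD hx)
  rw [Real.norm_eq_abs] at h1
  exact h1.trans (h2.trans (le_abs_self _))

lemma pack_count (P : Finset (En n)) {F : Set (En n)} (hF : MeasurableSet F) {R D : ℝ}
    (hP : ∀ p ∈ P, p ∈ cube n R) (hD : F ⊆ cube n D)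
    (hdis : ∀ p ∈ P, ∀ q ∈ P, ∀ x, x - p ∈ F → x - q ∈ F → p = q) :
    (P.card : ENNReal) * volume F ≤ volume (cube n (R + D)) := by
  have h1 : volume (⋃ p ∈ P, (fun x => x - p) ⁻¹' F) = P.card * volume F := by
    rw [measure_biUnion_finset]
    · simp [sub_eq_add_neg, measure_preimage_add_right]
    · intro p hp q hq hpq
      exact Set.disjoint_left.2 fun x hx hy => hpq (hdis p hp q hq x hx hy)
    · exact fun p _ => measurable_sub_const p hF
  rw [← h1]
  refine measure_mono fun x hx => ?_
  simp only [Set.mem_iUnion] at hx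
  obtain ⟨p, hp, hx⟩ := hx
  intro i
  have h2 := hP p hp i
  have h3 := hD hx i
  have h4 : x i = p i + (x - p) i := by simp
  rw [h4]
  exact (abs_add_le _ _).trans (add_le_add h2 h3)

lemma pack_count_real (P : Finset (En n)) {F : Set (En n)} (hF : MeasurableSet F) {R D : ℝ}
    (hRD : 0 ≤ R + D) (hP : ∀ p ∈ P, p ∈ cube n R) (hD : F ⊆ cube n D)
    (hdis : ∀ p ∈ P, ∀ q ∈ P, ∀ x, x - p ∈ F → x - q ∈ F → p = q) :
    (P.card : ℝ) * (volume F).toReal ≤ (2 * (R + D)) ^ n := by
  have h1 := pack_count P hF hP hD hdis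
  rw [volume_cube n hRD] at h1
  have h2 := ENNReal.toReal_mono ENNReal.ofReal_ne_top h1
  rw [ENNReal.toReal_mul, ENNReal.toReal_ofReal (by positivity)] at h2
  simpa using h2

lemma upperDensity_le {X : Set (En n)} {a D : ℝ}
    (h : ∀ R, 0 < R → ((X ∩ cube n R).ncard : ℝ) ≤ a * (2 * (R + D)) ^ n) :
    upperDensity X ≤ ENNReal.ofReal a := by
  have h1 : Tendsto (fun R : ℝ => ENNReal.ofReal (a * (1 + D / R) ^ n)) atTop
      (𝓝 (ENNReal.ofReal a)) := by
    refine ENNReal.tendsto_ofReal ?_
    have h2 : Tendsto (fun R : ℝ => D / R) atTop (𝓝 0) := tendsto_const_nhds.div_atTop tendsto_id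
    have h3 := ((h2.const_add 1).pow n).const_mul a
    simpa using h3
  rw [← h1.limsup_eq]
  refine limsup_le_limsup ?_
  filter_upwards [eventually_gt_atTop 0] with R hR
  rw [← ENNReal.ofReal_natCast, ← ENNReal.ofReal_div_of_pos (by positivity)]
  refine ENNReal.ofReal_le_ofReal ?_
  rw [div_le_iff₀ (by positivity)]
  refine (h R hR).trans (le_of_eq ?_)
  rw [mul_assoc, ← mul_pow]
  congr 2
  field_simp

lemma locFin_of_cube {X : Set (En n)} (h : ∀ R, (X ∩ cube n R).Finite) : LocFin X := by
  intro B hB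
  obtain ⟨D, _, hD⟩ := exists_cube_of_bounded hB
  exact (h D).subset (Set.inter_subset_inter_right _ hD)

lemma thetaT_le_thetaL (K : Set (En n)) : thetaT K ≤ thetaL K := by
  refine le_iInf fun L => le_iInf fun hd => le_iInf fun hz => le_iInf fun hc => ?_
  have hfin : ∀ R, ((L : Set (En n)) ∩ cube n R).Finite := by
    intro R
    have := ZSpan.setFinite_inter ((Module.Free.chooseBasis ℤ L).ofZLatticeBasis ℝ L)
      (isBounded_cube n R)
    rwa [Set.inter_comm, Module.Basis.ofZLatticeBasis_span] at this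
  refine (iInf_le _ (L : Set (En n))).trans ((iInf_le _ (locFin_of_cube hfin)).trans
    ((iInf_le _ hc).trans ?_))
  set b := (Module.Free.chooseBasis ℤ L).ofZLatticeBasis ℝ L with hb
  have hcov := ZLattice.covolume_pos L volume
  have hF : ZLattice.covolume L volume = (volume (ZSpan.fundamentalDomain b)).toReal :=
    ZLattice.covolume_eq_measure_fundamentalDomain L volume
      (ZLattice.isAddFundamentalDomain (Module.Free.chooseBasis ℤ L) volume)
  obtain ⟨D, hD0, hD⟩ := exists_cube_of_bounded (ZSpan.fundamentalDomain_isBounded b)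
  have h1 : upperDensity (L : Set (En n)) ≤ ENNReal.ofReal (ZLattice.covolume L volume)⁻¹ := by
    refine upperDensity_le (D := D) fun R hR => ?_
    have h2 := pack_count_real (hfin R).toFinset (ZSpan.fundamentalDomain_measurableSet b)
      (R := R) (D := D) (by positivity) (fun p hp => ((hfin R).mem_toFinset.1 hp).2) hD ?_
    · rw [← hF, ← Set.ncard_eq_toFinset_card _ (hfin R)] at h2
      rw [← div_eq_inv_mul, le_div_iff₀ hcov]
      exact h2
    · intro p hp q hq x hxp hxq
      have hp' : p ∈ Submodule.span ℤ (Set.range b) := by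
        rw [hb, Module.Basis.ofZLatticeBasis_span]; exact ((hfin R).mem_toFinset.1 hp).1
      have hq' : q ∈ Submodule.span ℤ (Set.range b) := by
        rw [hb, Module.Basis.ofZLatticeBasis_span]; exact ((hfin R).mem_toFinset.1 hq).1
      have h3 := (ZSpan.exist_unique_vadd_mem_fundamentalDomain b x).unique
        (y₁ := -⟨p, hp'⟩) (y₂ := -⟨q, hq'⟩)
        (by simpa [Submodule.vadd_def, sub_eq_neg_add] using hxp)
        (by simpa [Submodule.vadd_def, sub_eq_neg_add] using hxq)
      simpa using h3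
  rw [div_eq_mul_inv, ← ENNReal.ofReal_inv_of_pos hcov]
  exact mul_le_mul_right h1 _

end Vale.Agent.P230
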