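import Mathlib

/-! Expectation for a random subset of a finite set. -/

namespace Vale.Agent.P230

open Finset

variable {α : Type*} [DecidableEq α]

/-- Expectation of `f F` where `F` keeps each point of `U` independently with probability `q`. -/
noncomputable def Ex (q : ℝ) (U : Finset α) (f : Finset α → ℝ) : ℝ :=
  ∑ F ∈ U.powerset, q ^ F.card * (1 - q) ^ (U.card - F.card) * f F

omit [DecidableEq α] in
lemma Ex_empty (q : ℝ) (f : Finset α → ℝ) : Ex q ∅ f = f ∅ := by
  simp [Ex]

lemma Ex_insert (q : ℝ) {U : Finset α} {a : α} (ha : a ∉ U) (f : Finset α → ℝ) :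
    Ex q (insert a U) f = (1 - q) * Ex q U f + q * Ex q U (fun F => f (insert a F)) := by
  unfold Ex
  rw [sum_powerset_insert ha, mul_sum, mul_sum, card_insert_of_notMem ha]
  congr 1
  · refine sum_congr rfl fun F hF => ?_
    have h1 : F.card ≤ U.card := card_le_card (mem_powerset.1 hF)
    rw [show U.card + 1 - F.card = (U.card - F.card) + 1 by omega]
    ring
  · refine sum_congr rfl fun F hF => ?_
    have h0 : a ∉ F := fun h => ha (mem_powerset.1 hF h)
    rw [card_insert_of_notMem h0, show U.card + 1 - (F.card + 1) = U.card - F.card by omega]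
    ring

omit [DecidableEq α] in
lemma Ex_add (q : ℝ) (U : Finset α) (f g : Finset α → ℝ) :
    Ex q U (fun F => f F + g F) = Ex q U f + Ex q U g := by
  simp [Ex, mul_add, sum_add_distrib]

omit [DecidableEq α] in
lemma Ex_sub (q : ℝ) (U : Finset α) (f g : Finset α → ℝ) :
    Ex q U (fun F => f F - g F) = Ex q U f - Ex q U g := by
  simp [Ex, mul_sub, sum_sub_distrib]

omit [DecidableEq α] in
lemma Ex_const_mul (q : ℝ) (U : Finset α) (c : ℝ) (f : Finset α → ℝ) :
    Ex q U (fun F => c * f F) = c * Ex q U f := by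
  simp only [Ex, mul_sum]
  exact sum_congr rfl fun F _ => by ring

omit [DecidableEq α] in
lemma Ex_sum {ι : Type*} (q : ℝ) (U : Finset α) (s : Finset ι) (f : ι → Finset α → ℝ) :
    Ex q U (fun F => ∑ i ∈ s, f i F) = ∑ i ∈ s, Ex q U (f i) := by
  simp only [Ex, mul_sum]
  exact sum_comm

lemma Ex_const (q : ℝ) (U : Finset α) (c : ℝ) : Ex q U (fun _ => c) = c := by
  induction U using Finset.induction_on with
  | empty => exact Ex_empty _ _
  | insert a U ha ih => rw [Ex_insert q ha, ih]; ring

omit [DecidableEq α] in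
lemma Ex_mono {q : ℝ} (h0 : 0 ≤ q) (h1 : q ≤ 1) (U : Finset α) {f g : Finset α → ℝ}
    (h : ∀ F, F ⊆ U → f F ≤ g F) : Ex q U f ≤ Ex q U g := by
  unfold Ex
  refine sum_le_sum fun F hF => ?_
  have : 0 ≤ 1 - q := by linarith
  exact mul_le_mul_of_nonneg_left (h F (mem_powerset.1 hF)) (by positivity)

lemma Ex_nonneg {q : ℝ} (h0 : 0 ≤ q) (h1 : q ≤ 1) (U : Finset α) {f : Finset α → ℝ}
    (h : ∀ F, F ⊆ U → 0 ≤ f F) : 0 ≤ Ex q U f := by
  have := Ex_mono h0 h1 U (f := fun _ => (0 : ℝ)) (g := f) h
  rwa [Ex_const] at this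

lemma Ex_indep (q : ℝ) (U : Finset α) (f g : Finset α → ℝ)
    (h : ∀ a, (∀ F, f (insert a F) = f F) ∨ (∀ F, g (insert a F) = g F)) :
    Ex q U (fun F => f F * g F) = Ex q U f * Ex q U g := by
  induction U using Finset.induction_on generalizing f g with
  | empty => simp [Ex_empty]
  | insert a U ha ih =>
    rw [Ex_insert q ha, Ex_insert q ha, Ex_insert q ha, ih f g h]
    have h' : ∀ b, (∀ F, (fun F => f (insert a F)) (insert b F) = (fun F => f (insert a F)) F) ∨
        (∀ F, (fun F => g (insert a F)) (insert b F) = (fun F => g (insert a F)) F) := by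
      intro b
      rcases h b with hb | hb
      · left; intro F; simp only; rw [insert_comm, hb]
      · right; intro F; simp only; rw [insert_comm, hb]
    rw [ih _ _ h']
    rcases h a with hb | hb
    · simp only [hb]; ring
    · simp only [hb]; ring

lemma Ex_subset (q : ℝ) (U : Finset α) (τ : Finset α) (hτ : τ ⊆ U) :
    Ex q U (fun F => if τ ⊆ F then 1 else 0) = q ^ τ.card := by
  induction U using Finset.induction_on generalizing τ with
  | empty =>
    have : τ = ∅ := subset_empty.1 hτ
    subst this; simp [Ex_empty]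
  | insert a U ha ih =>
    rw [Ex_insert q ha]
    by_cases hat : a ∈ τ
    · have h1 : Ex q U (fun F => if τ ⊆ F then 1 else 0) = 0 := by
        unfold Ex
        refine sum_eq_zero fun F hF => ?_
        have : ¬ τ ⊆ F := fun h => ha (mem_powerset.1 hF (h hat))
        simp [this]
      have h2 : (fun F => if τ ⊆ insert a F then (1 : ℝ) else 0) =
          fun F => if τ.erase a ⊆ F then 1 else 0 := by
        funext F; simp only [subset_insert_iff]
      have h3 : τ.erase a ⊆ U := subset_insert_iff.1 hτ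
      rw [h1, h2, ih _ h3, ← card_erase_add_one hat]
      ring
    · have h3 : τ ⊆ U := (subset_insert_iff_of_notMem hat).1 hτ
      have h2 : (fun F => if τ ⊆ insert a F then (1 : ℝ) else 0) =
          fun F => if τ ⊆ F then 1 else 0 := by
        funext F; simp only [subset_insert_iff_of_notMem hat]
      rw [h2, ih _ h3]; ring

omit [DecidableEq α] in
lemma exists_of_Ex_lt {q : ℝ} (h0 : 0 ≤ q) (h1 : q ≤ 1) (U : Finset α) {f g : Finset α → ℝ}
    (h : Ex q U f < Ex q U g) : ∃ F, F ⊆ U ∧ f F < g F := by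
  by_contra hc
  push Not at hc
  exact absurd (Ex_mono h0 h1 U hc) (not_le.2 h)

/-- The probability of missing a set is at least one minus the expected number of hits. -/
lemma Ex_miss {q : ℝ} (h0 : 0 ≤ q) (h1 : q ≤ 1) (U C : Finset α) (hC : C ⊆ U) :
    1 - q * C.card ≤ Ex q U (fun F => if Disjoint F C then 1 else 0) := by
  have h2 : Ex q U (fun F => 1 - ∑ a ∈ C, if {a} ⊆ F then (1 : ℝ) else 0) = 1 - q * C.card := by
    rw [Ex_sub, Ex_const, Ex_sum]
    congr 1
    rw [sum_congr rfl (g := fun _ => q)]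
    · simp [mul_comm]
    · intro a ha
      rw [Ex_subset q U {a} (singleton_subset_iff.2 (hC ha))]; simp
  rw [← h2]
  refine Ex_mono h0 h1 U fun F _ => ?_
  by_cases hd : Disjoint F C
  · simp only [hd, if_true]
    have : 0 ≤ ∑ a ∈ C, if {a} ⊆ F then (1 : ℝ) else 0 :=
      sum_nonneg fun a _ => by split_ifs <;> norm_num
    linarith
  · simp only [hd, if_false]
    obtain ⟨a, haF, haC⟩ := not_disjoint_iff.1 hd
    have : (if {a} ⊆ F then (1 : ℝ) else 0) ≤ ∑ a ∈ C, if {a} ⊆ F then (1 : ℝ) else 0 :=
      single_le_sum (f := fun a => if {a} ⊆ F then (1 : ℝ) else 0)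
        (fun a _ => by split_ifs <;> norm_num) haC
    simp only [singleton_subset_iff, haF, if_true] at this ⊢
    linarith

end Vale.Agent.P230
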