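import Vale.Agent.P230.Greedy

/-! Second moment of greedy witnesses and independent groups. -/

namespace Vale.Agent.P230

open Finset

variable {α : Type*} [DecidableEq α]

/-- Weighted witness count. -/
noncomputable def W (q : ℝ) (l : List (Finset α)) (F : Finset α) : ℝ :=
  Gr l (fun τ => (1 / q) ^ τ.card * ind τ F)

/-- `F` meets every set of the list. -/
def Hit (l : List (Finset α)) (F : Finset α) : Prop := ∀ C ∈ l, (C ∩ F).Nonempty

lemma W_eq_zero (q : ℝ) {l : List (Finset α)} {U : Finset α} (hl : ∀ C ∈ l, C ⊆ U)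
    {F : Finset α} (h : ¬ Hit l F) : W q l F = 0 := by
  unfold W
  rw [← Gr_zero l]
  refine Gr_congr l U hl fun τ hτ => ?_
  unfold ind
  split_ifs with h1
  · exact absurd (fun C hC => (hτ.2.2 C hC).mono (inter_subset_inter_left h1)) h
  · simp

lemma Ex_ind (q : ℝ) {U τ : Finset α} (hτ : τ ⊆ U) : Ex q U (ind τ) = q ^ τ.card :=
  Ex_subset q U τ hτ

lemma Ex_W {q : ℝ} (hq : 0 < q) {l : List (Finset α)} {U : Finset α} (hl : ∀ C ∈ l, C ⊆ U)
    (hn : ∀ C ∈ l, C.Nonempty) : Ex q U (W q l) = 1 := by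
  unfold W
  rw [Ex_Gr q U l (fun F τ => (1 / q) ^ τ.card * ind τ F)]
  refine (Gr_congr l U hl fun τ hτ => ?_).trans (Gr_const l hn 1)
  rw [Ex_const_mul, Ex_ind q hτ.1, ← mul_pow, one_div, inv_mul_cancel₀ hq.ne', one_pow]

/-- The mixed second moment of two witness counts. -/
noncomputable def pair (q : ℝ) (l l' : List (Finset α)) : ℝ :=
  Gr l (fun τ => Gr l' (fun τ' => (1 / q) ^ (τ ∩ τ').card))

lemma Ex_WW {q : ℝ} (hq : 0 < q) {l l' : List (Finset α)} {U : Finset α} (hl : ∀ C ∈ l, C ⊆ U)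
    (hl' : ∀ C ∈ l', C ⊆ U) : Ex q U (fun F => W q l F * W q l' F) = pair q l l' := by
  have h1 : ∀ F, W q l F * W q l' F = Gr l (fun τ => Gr l' (fun τ' =>
      (1 / q) ^ (τ.card + τ'.card) * ind (τ ∪ τ') F)) := by
    intro F
    rw [mul_comm, W, W, ← Gr_const_mul]
    congr 1
    funext τ
    rw [mul_comm, ← Gr_const_mul]
    congr 1
    funext τ'
    have : ind (τ ∪ τ') F = ind τ F * ind τ' F := by
      simp only [ind, union_subset_iff]
      by_cases h1 : τ ⊆ F <;> by_cases h2 : τ' ⊆ F <;> simp [h1, h2]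
    rw [this, pow_add]; ring
  simp only [h1]
  rw [Ex_Gr q U l (fun F τ => Gr l' (fun τ' => (1 / q) ^ (τ.card + τ'.card) * ind (τ ∪ τ') F))]
  refine Gr_congr l U hl fun τ hτ => ?_
  rw [Ex_Gr q U l' (fun F τ' => (1 / q) ^ (τ.card + τ'.card) * ind (τ ∪ τ') F)]
  refine Gr_congr l' U hl' fun τ' hτ' => ?_
  rw [Ex_const_mul, Ex_ind q (union_subset hτ.1 hτ'.1), ← card_union_add_card_inter, pow_add,
    mul_right_comm, ← mul_pow, one_div, inv_mul_cancel₀ hq.ne', one_pow, one_mul]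

lemma pow_inter_le {x : ℝ} (hx : 0 ≤ x) (τ τ' : Finset α) :
    x ^ (τ ∩ τ').card ≤ ∑ σ ∈ τ.powerset, x ^ σ.card * ind σ τ' := by
  have h1 : ∑ σ ∈ τ.powerset, x ^ σ.card * ind σ τ' = ∑ σ ∈ (τ ∩ τ').powerset, x ^ σ.card := by
    simp only [ind, mul_ite, mul_one, mul_zero]
    rw [← sum_filter]
    refine sum_congr ?_ fun _ _ => rfl
    ext σ
    simp only [mem_filter, mem_powerset, subset_inter_iff]
  rw [h1]
  exact single_le_sum (f := fun σ : Finset α => x ^ σ.card) (fun σ _ => by positivity)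
    (mem_powerset_self _)

lemma inner_le {q : ℝ} (hq : 0 < q) (l' : List (Finset α)) (τ : Finset α) :
    Gr l' (fun τ' => (1 / q) ^ (τ ∩ τ').card) ≤
      ∑ σ ∈ τ.powerset, (1 / q) ^ σ.card * Gr l' (ind σ) := by
  refine (Gr_mono' l' (pow_inter_le (by positivity) τ)).trans (le_of_eq ?_)
  rw [Gr_sum l' τ.powerset (fun σ τ' => (1 / q) ^ σ.card * ind σ τ')]
  exact sum_congr rfl fun σ _ => Gr_const_mul _ _ _

lemma pair_le_a {q : ℝ} (hq : 0 < q) {l : List (Finset α)} (l' : List (Finset α)) {U : Finset α}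
    (hl : ∀ C ∈ l, C ⊆ U) (hn : ∀ C ∈ l, C.Nonempty) :
    pair q l l' ≤ 2 ^ l.length * (l'.map fun C => 1 + 1 / (q * C.card)).prod := by
  have hP : 0 ≤ (l'.map fun C => 1 + 1 / (q * C.card)).prod := by
    refine List.prod_nonneg fun x hx => ?_
    obtain ⟨D, _, rfl⟩ := List.mem_map.1 hx
    positivity
  unfold pair
  rw [← Gr_const l hn (2 ^ l.length * _)]
  refine Gr_mono l U hl fun τ hτ => (inner_le hq l' τ).trans ?_
  calc ∑ σ ∈ τ.powerset, (1 / q) ^ σ.card * Gr l' (ind σ)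
      ≤ ∑ σ ∈ τ.powerset, (l'.map fun C => 1 + 1 / (q * C.card)).prod := by
        refine sum_le_sum fun σ _ => ?_
        refine (mul_le_mul_of_nonneg_left (Gr_ind_le_a hq l' σ) (by positivity)).trans
          (le_of_eq ?_)
        rw [← mul_assoc, ← mul_pow, one_div, inv_mul_cancel₀ hq.ne', one_pow, one_mul]
    _ = 2 ^ τ.card * (l'.map fun C => 1 + 1 / (q * C.card)).prod := by
        simp
    _ ≤ _ := mul_le_mul_of_nonneg_right (pow_le_pow_right₀ (by norm_num) hτ.2.1) hP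

lemma sum_mass (l : List (Finset α)) (C : Finset α) :
    ∑ u ∈ C, mass l u = (l.map fun D => ((C ∩ D).card : ℝ) / D.card).sum := by
  induction l with
  | nil => simp [mass]
  | cons D l ih =>
    simp only [mass_cons, sum_add_distrib, ih, List.map_cons, List.sum_cons]
    congr 1
    rw [← sum_filter, filter_mem_eq_inter]
    simp [div_eq_mul_inv]

lemma pair_le_b {q ε : ℝ} (hq : 0 < q) (l l' : List (Finset α))
    (h : ∀ C ∈ l, ∀ D ∈ l', ((C ∩ D).card : ℝ) / (q * C.card * D.card) ≤ ε) :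
    pair q l l' ≤ Real.exp (l.length * (l'.length * ε)) := by
  unfold pair
  have h1 : ∀ τ, Gr l' (fun τ' => (1 / q) ^ (τ ∩ τ').card) ≤
      ∏ u ∈ τ, (1 + 1 / q * mass l' u) := by
    intro τ
    refine (inner_le hq l' τ).trans ?_
    rw [prod_one_add]
    refine sum_le_sum fun σ _ => ?_
    rw [prod_mul_distrib, prod_const]
    exact mul_le_mul_of_nonneg_left (Gr_ind_le_b l' σ) (by positivity)
  refine (Gr_mono' l h1).trans ((Gr_prod_le l (fun u => 1 / q * mass l' u)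
    fun u => mul_nonneg (by positivity) (mass_nonneg _ _)).trans ?_)
  refine Real.exp_le_exp.2 ?_
  have h2 : ∀ x ∈ l.map fun C => (∑ u ∈ C, 1 / q * mass l' u) / C.card, x ≤ l'.length * ε := by
    intro x hx
    obtain ⟨C, hC, rfl⟩ := List.mem_map.1 hx
    rw [← mul_sum, sum_mass, div_eq_mul_inv _ (C.card : ℝ), ← List.sum_map_mul_left,
      ← List.sum_map_mul_right]
    have h3 : ∀ y ∈ l'.map fun D => 1 / q * (((C ∩ D).card : ℝ) / D.card) * (C.card : ℝ)⁻¹,
        y ≤ ε := by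
      intro y hy
      obtain ⟨D, hD, rfl⟩ := List.mem_map.1 hy
      refine le_of_eq_of_le ?_ (h C hC D hD)
      simp only [div_eq_mul_inv, mul_inv]
      ring
    have := List.sum_le_card_nsmul _ _ h3
    simpa using this
  have := List.sum_le_card_nsmul _ _ h2
  simpa using this

open Classical in
/-- Indicator that no member of `T` has all its sets hit. -/
noncomputable def miss {ι : Type*} (l : ι → List (Finset α)) (T : Finset ι) (F : Finset α) : ℝ :=
  if ∀ y ∈ T, ¬ Hit (l y) F then 1 else 0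

lemma miss_nonneg {ι : Type*} (l : ι → List (Finset α)) (T : Finset ι) (F : Finset α) :
    0 ≤ miss l T F := by
  unfold miss; split_ifs <;> norm_num

lemma miss_le_one {ι : Type*} (l : ι → List (Finset α)) (T : Finset ι) (F : Finset α) :
    miss l T F ≤ 1 := by
  unfold miss; split_ifs <;> norm_num

lemma miss_anti {ι : Type*} (l : ι → List (Finset α)) {T T' : Finset ι} (h : T' ⊆ T)
    (F : Finset α) : miss l T F ≤ miss l T' F := by
  unfold miss
  split_ifs with h1 h2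
  · exact le_rfl
  · exact absurd (fun y hy => h1 y (h hy)) h2
  · norm_num
  · exact le_rfl

lemma second_moment {ι : Type*} {q : ℝ} (hq : 0 < q) (hq1 : q ≤ 1) (U : Finset α)
    (l : ι → List (Finset α)) (H : Finset ι) (hH : H.Nonempty)
    (hl : ∀ y ∈ H, ∀ C ∈ l y, C ⊆ U) (hn : ∀ y ∈ H, ∀ C ∈ l y, C.Nonempty)
    (h2 : ∑ y ∈ H, ∑ y' ∈ H, pair q (l y) (l y') ≤ 4 * (H.card : ℝ) ^ 2) :
    Ex q U (miss l H) ≤ 3 / 4 := by
  have hh : (0 : ℝ) < H.card := by exact_mod_cast card_pos.2 hH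
  set a : ℝ := 1 / (4 * H.card) with ha
  have hZ : Ex q U (fun F => ∑ y ∈ H, W q (l y) F) = H.card := by
    rw [Ex_sum, sum_congr rfl fun y hy => Ex_W hq (hl y hy) (hn y hy)]
    simp
  have hZ2 : Ex q U (fun F => (∑ y ∈ H, W q (l y) F) ^ 2) ≤ 4 * (H.card : ℝ) ^ 2 := by
    refine le_of_eq_of_le ?_ h2
    simp only [sq, sum_mul_sum]
    rw [Ex_sum]
    refine sum_congr rfl fun y hy => ?_
    rw [Ex_sum]
    exact sum_congr rfl fun y' hy' => Ex_WW hq (hl y hy) (hl y' hy')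
  have h3 : Ex q U (miss l H) ≤ Ex q U (fun F => (1 - 2 * a * ∑ y ∈ H, W q (l y) F) +
      a ^ 2 * (∑ y ∈ H, W q (l y) F) ^ 2) := by
    refine Ex_mono hq.le hq1 U fun F _ => ?_
    unfold miss
    split_ifs with h
    · rw [sum_eq_zero fun y hy => W_eq_zero q (hl y hy) (h y hy)]
      simp
    · nlinarith [sq_nonneg (1 - a * ∑ y ∈ H, W q (l y) F)]
  rw [Ex_add, Ex_sub, Ex_const, Ex_const_mul, Ex_const_mul, hZ] at h3
  have h4 : a ^ 2 * Ex q U (fun F => (∑ y ∈ H, W q (l y) F) ^ 2) ≤ a ^ 2 * (4 * (H.card : ℝ) ^ 2) :=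
    mul_le_mul_of_nonneg_left hZ2 (sq_nonneg a)
  have h5 : a * H.card = 1 / 4 := by rw [ha]; field_simp
  have h6 : a ^ 2 * (4 * (H.card : ℝ) ^ 2) = 4 * (a * H.card) ^ 2 := by ring
  rw [h6, h5] at h4
  rw [mul_assoc, h5] at h3
  linarith

lemma miss_insert {ι : Type*} (l : ι → List (Finset α)) (T : Finset ι) {a : α}
    (h : ∀ y ∈ T, ∀ C ∈ l y, a ∉ C) (F : Finset α) : miss l T (insert a F) = miss l T F := by
  unfold miss
  have : (∀ y ∈ T, ¬ Hit (l y) (insert a F)) ↔ ∀ y ∈ T, ¬ Hit (l y) F := by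
    refine forall₂_congr fun y hy => not_congr (forall₂_congr fun C hC => ?_)
    rw [inter_insert_of_notMem (h y hy C hC)]
  by_cases h1 : ∀ y ∈ T, ¬ Hit (l y) F
  · rw [if_pos h1, if_pos (this.2 h1)]
  · rw [if_neg h1, if_neg fun h2 => h1 (this.1 h2)]

lemma groups {ι : Type*} {q : ℝ} (hq : 0 ≤ q) (hq1 : q ≤ 1) (U : Finset α)
    (l : ι → List (Finset α)) (T : Finset ι) (m r : ℝ) (hr : 0 ≤ r)
    (hstep : ∀ T' ⊆ T, m ≤ T'.card → ∃ H ⊆ T', ∃ T'' ⊆ T', (T'.card : ℝ) ≤ T''.card + r ∧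
      (∀ a, (∀ y ∈ H, ∀ C ∈ l y, a ∉ C) ∨ (∀ y ∈ T'', ∀ C ∈ l y, a ∉ C)) ∧
      Ex q U (miss l H) ≤ 3 / 4) (M : ℕ) :
    ∀ T' ⊆ T, m + M * r ≤ T'.card → Ex q U (miss l T') ≤ (3 / 4) ^ M := by
  induction M with
  | zero =>
    intro T' _ _
    rw [pow_zero, ← Ex_const q U 1]
    exact Ex_mono hq hq1 U fun F _ => miss_le_one _ _ _
  | succ M ih =>
    intro T' hT' hc
    push_cast at hc
    have hMr : 0 ≤ (M : ℝ) * r := by positivity
    obtain ⟨H, hH, T'', hT'', h1, h2, h3⟩ := hstep T' hT' (by nlinarith)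
    have h4 := ih T'' (hT''.trans hT') (by nlinarith)
    have h5 : Ex q U (miss l T') ≤ Ex q U (fun F => miss l H F * miss l T'' F) := by
      refine Ex_mono hq hq1 U fun F _ => ?_
      have e1 := miss_anti l hH F
      have e2 := miss_anti l hT'' F
      have e3 : miss l T' F = miss l T' F * miss l T' F := by
        unfold miss; split_ifs <;> norm_num
      rw [e3]
      exact mul_le_mul e1 e2 (miss_nonneg _ _ _) (miss_nonneg _ _ _)
    rw [Ex_indep q U (miss l H) (miss l T'')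
      (fun a => (h2 a).imp (fun h => miss_insert l H h) (fun h => miss_insert l T'' h))] at h5
    refine h5.trans ?_
    rw [pow_succ, mul_comm]
    exact mul_le_mul h4 h3 (Ex_nonneg hq hq1 U fun F _ => miss_nonneg _ _ _) (by positivity)

end Vale.Agent.P230
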