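import Vale.Agent.P230.Pack

/-! The upper bound of order `n log n` for translative coverings. -/

namespace Vale.Agent.P230

open Finset Filter MeasureTheory Pointwise Topology

variable {n : ℕ}

/-- The open cube. -/
def ocube (n : ℕ) (R : ℝ) : Set (En n) := {x | ∀ i, |x i| < R}

lemma ocube_eq (n : ℕ) (R : ℝ) : ocube n R =
    WithLp.ofLp ⁻¹' (Set.univ.pi fun _ : Fin n => Set.Ioo (-R) R) := by
  ext x
  simp only [ocube, abs_lt, Set.mem_ofPred_eq, Set.mem_preimage, Set.mem_pi, Set.mem_univ,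
    true_imp_iff, Set.mem_Ioo]

lemma measurableSet_ocube (n : ℕ) (R : ℝ) : MeasurableSet (ocube n R) := by
  rw [ocube_eq]
  exact (PiLp.volume_preserving_ofLp (Fin n)).measurable
    (MeasurableSet.univ_pi fun i => measurableSet_Ioo)

lemma volume_ocube (n : ℕ) {R : ℝ} (hR : 0 ≤ R) :
    (volume (ocube n R)).toReal = (2 * R) ^ n := by
  rw [ocube_eq, (PiLp.volume_preserving_ofLp (Fin n)).measure_preimage
    (MeasurableSet.univ_pi fun i => measurableSet_Ioo).nullMeasurableSet, volume_pi_pi]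
  simp only [Real.volume_Ioo, prod_const, card_univ, Fintype.card_fin]
  rw [ENNReal.toReal_pow, ENNReal.toReal_ofReal (by linarith)]
  congr 1
  ring

/-- One coset of the cubic lattice with spacing `2 L`. -/
def coset (L : ℝ) (x : En n) : Set (En n) := {y | ∃ z : Zn n, y = x + (2 * L) • emb z}

lemma coset_card {L : ℝ} (hL : 0 < L) (x : En n) {R : ℝ} (hR : 0 ≤ R + L) (P : Finset (En n))
    (hP : ∀ p ∈ P, p ∈ coset L x ∩ cube n R) : (P.card : ℝ) * (2 * L) ^ n ≤ (2 * (R + L)) ^ n := by
  rw [← volume_ocube n hL.le]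
  refine pack_count_real P (measurableSet_ocube n L) hR (fun p hp => (hP p hp).2)
    (fun y hy i => (hy i).le) ?_
  intro p hp q hq y hyp hyq
  obtain ⟨z, rfl⟩ := (hP p hp).1
  obtain ⟨w, rfl⟩ := (hP q hq).1
  have : z = w := by
    funext i
    have h1 := abs_lt.1 (hyp i)
    have h2 := abs_lt.1 (hyq i)
    simp only [PiLp.sub_apply, PiLp.add_apply, PiLp.smul_apply, emb_apply, smul_eq_mul] at h1 h2
    have h3 : (z i : ℝ) - w i < 1 := by nlinarith [h1.1, h2.2]
    have h4 : (w i : ℝ) - z i < 1 := by nlinarith [h1.2, h2.1]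
    have h5 : z i - w i < 1 := by exact_mod_cast h3
    have h6 : w i - z i < 1 := by exact_mod_cast h4
    omega
  rw [this]

lemma finite_of_card_le {α : Type*} {S : Set α} {b : ℝ}
    (h : ∀ P : Finset α, (∀ p ∈ P, p ∈ S) → (P.card : ℝ) ≤ b) : S.Finite := by
  by_contra hS
  obtain ⟨P, hP, hc⟩ := Set.Infinite.exists_subset_card_eq hS (⌈b⌉₊ + 1)
  have h1 := h P fun p hp => hP hp
  rw [hc] at h1
  push_cast at h1
  linarith [Nat.le_ceil b]

lemma coset_finite {L : ℝ} (hL : 0 < L) (x : En n) (R : ℝ) : (coset L x ∩ cube n R).Finite := by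
  refine finite_of_card_le (b := (2 * (|R| + L)) ^ n / (2 * L) ^ n) fun P hP => ?_
  rw [le_div_iff₀ (by positivity)]
  exact coset_card hL x (by positivity) P fun p hp =>
    ⟨(hP p hp).1, fun i => ((hP p hp).2 i).trans (le_abs_self R)⟩

lemma thetaT_le_of_finite {K : Set (En n)} {L : ℝ} (hL : 0 < L) (X : Finset (En n))
    (h : ∀ q ∈ cube n L, ∃ x ∈ X, q - x ∈ K) :
    thetaT K ≤ volume K * ENNReal.ofReal (X.card / (2 * L) ^ n) := by
  classical
  have he : ∀ R, (⋃ x ∈ X, coset L x) ∩ cube n R =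
      ↑(X.biUnion fun x => (coset_finite hL x R).toFinset) := by
    intro R
    ext y
    simp only [Set.mem_inter_iff, Set.mem_iUnion, coe_biUnion, Set.Finite.coe_toFinset, mem_coe]
    constructor
    · rintro ⟨⟨x, hx, h1⟩, h2⟩; exact ⟨x, hx, h1, h2⟩
    · rintro ⟨x, hx, h1, h2⟩; exact ⟨⟨x, hx, h1⟩, h2⟩
  have hfin : LocFin (⋃ x ∈ X, coset L x) := locFin_of_cube fun R => by
    rw [he]; exact finite_toSet _
  have hc : K + (⋃ x ∈ X, coset L x) = Set.univ := by
    refine Set.eq_univ_of_forall fun y => ?_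
    set z : Zn n := fun i => round (y i / (2 * L)) with hz
    obtain ⟨x, hx, hxK⟩ := h (y - (2 * L) • emb z) fun i => by
      have h1 := abs_sub_round (y i / (2 * L))
      have h2 : (y - (2 * L) • emb z) i = (2 * L) * (y i / (2 * L) - round (y i / (2 * L))) := by
        simp only [PiLp.sub_apply, PiLp.smul_apply, emb_apply, smul_eq_mul, hz]
        field_simp
      rw [h2, abs_mul, abs_of_pos (by positivity : 0 < 2 * L)]
      nlinarith
    refine Set.mem_add.2 ⟨_, hxK, x + (2 * L) • emb z, ?_, by abel⟩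
    simp only [Set.mem_iUnion]
    exact ⟨x, hx, z, rfl⟩
  refine (iInf_le _ _).trans ((iInf_le _ hfin).trans ((iInf_le _ hc).trans ?_))
  refine mul_le_mul_right (upperDensity_le (D := L) fun R hR => ?_) _
  rw [he, Set.ncard_coe_finset]
  have h1 : ((X.biUnion fun x => (coset_finite hL x R).toFinset).card : ℝ) ≤
      ∑ x ∈ X, (((coset_finite hL x R).toFinset).card : ℝ) := by exact_mod_cast card_biUnion_le
  refine h1.trans ?_
  have h2 : ∀ x ∈ X, (((coset_finite hL x R).toFinset).card : ℝ) ≤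
      (2 * (R + L)) ^ n / (2 * L) ^ n := by
    intro x _
    rw [le_div_iff₀ (by positivity)]
    exact coset_card hL x (by positivity) _ fun p hp => (coset_finite hL x R).mem_toFinset.1 hp
  refine (sum_le_sum h2).trans (le_of_eq ?_)
  rw [sum_const, nsmul_eq_mul]; ring

lemma exists_ge_average {W : Set (En n)} (hW : MeasurableSet W) (h0 : volume W ≠ 0)
    {f : En n → ENNReal} {c : ENNReal} (hc : c ≠ ⊤) (h : ∫⁻ x in W, f x = c) :
    ∃ x ∈ W, c / volume W ≤ f x := by
  obtain ⟨x, hx, h1⟩ := exists_setLAverage_le (μ := volume) (f := f) h0 hW.nullMeasurableSet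
    (by rw [h]; exact hc)
  rw [setLAverage_eq, h] at h1
  exact ⟨x, hx, h1⟩

lemma exists_core {K : Set (En n)} (hK : IsCompact K) (hc : Convex ℝ K) (h0 : volume K ≠ 0) :
    ∃ x₀ ∈ K, volume K / 2 ^ n ≤ volume {x | x + x₀ ∈ K ∧ -x + x₀ ∈ K} := by
  have hm := hK.measurableSet
  have hfin := hK.measure_lt_top (μ := volume)
  have h2 : volume ((2 : ℝ) • K) = 2 ^ n * volume K := by
    rw [Measure.addHaar_smul, finrank_euclideanSpace_fin, abs_of_pos (by positivity),
      ENNReal.ofReal_pow (by norm_num)]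
    simp
  have hS : MeasurableSet {p : En n × En n | p.2 ∈ K ∧ p.1 - p.2 ∈ K} :=
    (measurable_snd hm).inter ((measurable_fst.sub measurable_snd) hm)
  have h3 : ∫⁻ z, volume {x | x ∈ K ∧ z - x ∈ K} = volume K * volume K := by
    have h4 := Measure.prod_apply (μ := volume) (ν := volume) hS
    have h5 := Measure.prod_apply_symm (μ := volume) (ν := volume) hS
    refine h4.symm.trans (h5.trans ?_)
    have h6 : ∀ x : En n, volume ((fun z => (z, x)) ⁻¹' {p : En n × En n | p.2 ∈ K ∧ p.1 - p.2 ∈ K})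
        = K.indicator (fun _ => volume K) x := by
      intro x
      by_cases hx : x ∈ K
      · rw [Set.indicator_of_mem hx, ← measure_preimage_add_right volume (-x) K]
        congr 1
        ext z
        simp [hx, sub_eq_add_neg]
      · rw [Set.indicator_of_notMem hx]
        convert measure_empty (μ := (volume : Measure (En n)))
        ext z
        simp [hx]
    simp only [h6]
    rw [lintegral_indicator hm, setLIntegral_const]
  have h4 : ∫⁻ z in (2 : ℝ) • K, volume {x | x ∈ K ∧ z - x ∈ K} = volume K * volume K := by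
    rw [← h3]
    refine setLIntegral_eq_of_support_subset fun z hz => ?_
    obtain ⟨x, hx, hzx⟩ := nonempty_of_measure_ne_zero hz
    refine ⟨(1 / 2 : ℝ) • x + (1 / 2 : ℝ) • (z - x), hc hx hzx (by norm_num) (by norm_num)
      (by norm_num), ?_⟩
    simp only
    module
  obtain ⟨z, ⟨x₀, hx₀, rfl⟩, h5⟩ := exists_ge_average ((hK.smul (2 : ℝ)).measurableSet)
    (by rw [h2]; exact mul_ne_zero (by simp) h0) (ENNReal.mul_ne_top hfin.ne hfin.ne) h4
  refine ⟨x₀, hx₀, ?_⟩
  rw [h2, ENNReal.mul_div_mul_right _ _ h0 hfin.ne] at h5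
  refine h5.trans (le_of_eq ?_)
  rw [← measure_preimage_add_right volume x₀]
  congr 1
  ext x
  have : (2 : ℝ) • x₀ - (x + x₀) = -x + x₀ := by module
  simp [this]

lemma greedy_step {A : Set (En n)} (hA : MeasurableSet A) {L D : ℝ} (hLD : 0 < L + D)
    (hAD : A ⊆ cube n D) (P : Finset (En n)) (hP : ∀ p ∈ P, p ∈ cube n L)
    [∀ x, DecidablePred fun p : En n => p - x ∈ A] :
    ∃ x, (volume A).toReal / (2 * (L + D)) ^ n * P.card ≤ (P.filter fun p => p - x ∈ A).card := by
  have hAf : volume A ≠ ⊤ :=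
    ((measure_mono hAD).trans_lt (isBounded_cube n D).measure_lt_top).ne
  have h1 : ∫⁻ x in cube n (L + D), ((P.filter fun p => p - x ∈ A).card : ENNReal) =
      P.card * volume A := by
    have h2 : ∀ x, ((P.filter fun p => p - x ∈ A).card : ENNReal) =
        ∑ p ∈ P, ((fun x => p - x) ⁻¹' A).indicator 1 x := by
      intro x
      rw [card_filter]
      push_cast
      refine sum_congr rfl fun p _ => ?_
      by_cases h : p - x ∈ A <;> simp [h, Set.indicator]
    simp only [h2]
    rw [lintegral_finsetSum _ fun p _ => measurable_one.indicator (measurable_const_sub p hA),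
      sum_congr rfl (g := fun _ => volume A)]
    · simp
    · intro p hp
      rw [lintegral_indicator_one (measurable_const_sub p hA),
        Measure.restrict_apply (measurable_const_sub p hA), Set.inter_eq_left.2,
        (Measure.measurePreserving_sub_left volume p).measure_preimage hA.nullMeasurableSet]
      intro x hx i
      have h3 := hP p hp i
      have h4 := hAD hx i
      have h5 : x i = p i - (p - x) i := by simp
      rw [h5]
      exact (abs_sub _ _).trans (add_le_add h3 h4)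
  obtain ⟨x, _, hx⟩ := exists_ge_average (measurableSet_cube n (L + D))
    (by rw [volume_cube n hLD.le]; simp; positivity)
    (ENNReal.mul_ne_top (ENNReal.natCast_ne_top _) hAf) h1
  refine ⟨x, ?_⟩
  have h3 := ENNReal.toReal_mono (ENNReal.natCast_ne_top _) hx
  rw [ENNReal.toReal_div, ENNReal.toReal_mul, volume_cube n hLD.le,
    ENNReal.toReal_ofReal (by positivity)] at h3
  simp only [ENNReal.toReal_natCast] at h3
  refine le_trans (le_of_eq ?_) h3
  ring

lemma greedy_cover {A : Set (En n)} (hA : MeasurableSet A) (h0 : (0 : En n) ∈ A) {L D : ℝ}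
    (hL : 0 < L) (hD : 0 ≤ D) (hAD : A ⊆ cube n D) (N : ℕ) (P : Finset (En n))
    (hP : ∀ p ∈ P, p ∈ cube n L) :
    ∃ X : Finset (En n), (X.card : ℝ) ≤ N + (1 - (volume A).toReal / (2 * (L + D)) ^ n) ^ N * P.card
      ∧ ∀ p ∈ P, ∃ x ∈ X, p - x ∈ A := by
  classical
  have ha : 0 ≤ 1 - (volume A).toReal / (2 * (L + D)) ^ n := by
    have h1 := ENNReal.toReal_mono (isBounded_cube n D).measure_lt_top.ne
      (measure_mono (μ := volume) hAD)
    rw [volume_cube n hD, ENNReal.toReal_ofReal (by positivity)] at h1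
    rw [sub_nonneg, div_le_one (by positivity)]
    exact h1.trans (by gcongr; linarith)
  induction N generalizing P with
  | zero => exact ⟨P, by simp, fun p hp => ⟨p, hp, by simpa using h0⟩⟩
  | succ N ih =>
    obtain ⟨x, hx⟩ := greedy_step hA (L := L) (D := D) (by linarith) hAD P hP
    obtain ⟨X, hX, hc⟩ := ih (P.filter fun p => ¬ p - x ∈ A) fun p hp => hP p (mem_filter.1 hp).1
    refine ⟨insert x X, ?_, fun p hp => ?_⟩
    · have h1 : ((insert x X).card : ℝ) ≤ X.card + 1 := by exact_mod_cast card_insert_le x X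
      have h2 : ((P.filter fun p => p - x ∈ A).card : ℝ) + (P.filter fun p => ¬ p - x ∈ A).card =
          P.card := by exact_mod_cast card_filter_add_card_filter_not (s := P) _
      have h3 : ((P.filter fun p => ¬ p - x ∈ A).card : ℝ) ≤
          (1 - (volume A).toReal / (2 * (L + D)) ^ n) * P.card := by linarith
      have h4 := mul_le_mul_of_nonneg_left h3 (pow_nonneg ha N)
      push_cast
      rw [pow_succ, mul_assoc]
      linarith
    · by_cases h : p - x ∈ A
      · exact ⟨x, mem_insert_self _ _, h⟩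
      · obtain ⟨y, hy, h1⟩ := hc p (mem_filter.2 ⟨hp, h⟩)
        exact ⟨y, mem_insert_of_mem hy, h1⟩

lemma exists_net {B : Set (En n)} (hB : MeasurableSet B) (hc : Convex ℝ B) (h0 : (0 : En n) ∈ B)
    (hs : ∀ x ∈ B, -x ∈ B) (hv : 0 < (volume B).toReal) {L D : ℝ} (hL : 0 < L) (hD : 0 ≤ D)
    (hBD : B ⊆ cube n D) :
    ∃ P : Finset (En n), (∀ p ∈ P, p ∈ cube n L) ∧
      (P.card : ℝ) * (volume B).toReal ≤ (2 * (L + D)) ^ n ∧
      ∀ y ∈ cube n L, ∃ p ∈ P, (1 / 2 : ℝ) • (y - p) ∈ B := by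
  classical
  set S : Set ℕ := {m | ∃ P : Finset (En n), P.card = m ∧ (∀ p ∈ P, p ∈ cube n L) ∧
    ∀ p ∈ P, ∀ q ∈ P, (1 / 2 : ℝ) • (p - q) ∈ B → p = q} with hS
  have hb : ∀ P : Finset (En n), (∀ p ∈ P, p ∈ cube n L) →
      (∀ p ∈ P, ∀ q ∈ P, (1 / 2 : ℝ) • (p - q) ∈ B → p = q) →
      (P.card : ℝ) * (volume B).toReal ≤ (2 * (L + D)) ^ n := by
    intro P h1 h2
    refine pack_count_real P hB (by linarith) h1 hBD fun p hp q hq x hxp hxq => h2 p hp q hq ?_
    have := hc (hs _ hxp) hxq (a := 1 / 2) (b := 1 / 2) (by norm_num) (by norm_num) (by norm_num)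
    convert this using 1
    module
  have hbdd : BddAbove S := by
    refine ⟨⌈(2 * (L + D)) ^ n / (volume B).toReal⌉₊, ?_⟩
    rintro m ⟨P, rfl, h1, h2⟩
    have h3 := (le_div_iff₀ hv).2 (hb P h1 h2)
    exact_mod_cast h3.trans (Nat.le_ceil _)
  obtain ⟨P, hP, h1, h2⟩ := Nat.sSup_mem (s := S) ⟨0, ∅, rfl, by simp, by simp⟩ hbdd
  refine ⟨P, h1, hb P h1 h2, fun y hy => ?_⟩
  by_contra hcon
  push Not at hcon
  have hyP : y ∉ P := fun h => hcon y h (by simpa using h0)
  have h3 : P.card + 1 ∈ S := by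
    refine ⟨insert y P, card_insert_of_notMem hyP, fun p hp => ?_, fun p hp q hq h => ?_⟩
    · rcases mem_insert.1 hp with rfl | hp
      · exact hy
      · exact h1 p hp
    · rcases mem_insert.1 hp with rfl | hp' <;> rcases mem_insert.1 hq with rfl | hq'
      · rfl
      · exact absurd h (hcon q hq')
      · refine absurd ?_ (hcon p hp')
        convert hs _ h using 1
        module
      · exact h2 p hp' q hq' h
  have h4 := le_csSup hbdd h3
  omega

lemma volume_smul_toReal (A : Set (En n)) {r : ℝ} (hr : 0 ≤ r) :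
    (volume (r • A)).toReal = r ^ n * (volume A).toReal := by
  rw [Measure.addHaar_smul_of_nonneg _ hr, finrank_euclideanSpace_fin, ENNReal.toReal_mul,
    ENNReal.toReal_ofReal (by positivity)]

lemma smul_subset_cube {A : Set (En n)} {D r : ℝ} (h : A ⊆ cube n D) (h0 : 0 ≤ r) (h1 : r ≤ 1) :
    r • A ⊆ cube n D := by
  rintro _ ⟨x, hx, rfl⟩ i
  have h2 := h hx i
  simp only [PiLp.smul_apply, smul_eq_mul, abs_mul, abs_of_nonneg h0]
  nlinarith [abs_nonneg (x i)]

theorem upper_bound (hn : 2 ≤ n) {K : Set (En n)} (hK : IsConvexBody K) :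
    thetaT K ≤ ENNReal.ofReal (19 * n * Real.log n) := by
  classical
  obtain ⟨hK, hc, hi⟩ := hK
  have hn' : (2 : ℝ) ≤ n := by exact_mod_cast hn
  have hv0 : volume K ≠ 0 := (Measure.measure_pos_of_nonempty_interior _ hi).ne'
  have hfin := hK.measure_lt_top (μ := volume)
  obtain ⟨x₀, hx₀, hcore⟩ := exists_core hK hc hv0
  set v := (volume K).toReal with hv
  have hvpos : 0 < v := ENNReal.toReal_pos hv0 hfin.ne
  set K₀ : Set (En n) := (fun x => x + x₀) ⁻¹' K with hK₀
  have hK₀c : IsCompact K₀ := (Homeomorph.addRight x₀).isCompact_preimage.2 hK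
  have hc₀ : Convex ℝ K₀ := hc.translate_preimage_left x₀
  have hv₀ : (volume K₀).toReal = v := by rw [hK₀, measure_preimage_add_right]
  have h0 : (0 : En n) ∈ K₀ := by simpa [hK₀] using hx₀
  set C : Set (En n) := {x | x + x₀ ∈ K ∧ -x + x₀ ∈ K} with hC
  have hCK : C ⊆ K₀ := fun x hx => hx.1
  have hCc : IsCompact C := hK₀c.of_isClosed_subset
    ((hK.isClosed.preimage (by fun_prop : Continuous fun x : En n => x + x₀)).inter
      (hK.isClosed.preimage (by fun_prop : Continuous fun x : En n => -x + x₀))) hCK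
  have hCconv : Convex ℝ C := by
    intro x hx y hy a b ha hb hab
    refine ⟨hc₀ hx.1 hy.1 ha hb hab, ?_⟩
    have := hc₀ (x := -x) hx.2 (y := -y) hy.2 ha hb hab
    have e : -(a • x + b • y) = a • -x + b • -y := by module
    rw [e]; exact this
  have hCv : v / 2 ^ n ≤ (volume C).toReal := by
    have := ENNReal.toReal_mono hCc.measure_lt_top.ne hcore
    simpa using this
  obtain ⟨D, hD0, hD⟩ := exists_cube_of_bounded hK₀c.isBounded
  set L : ℝ := 2 * n * D + 1 with hL
  have hLpos : 0 < L := by positivity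
  set Wv : ℝ := (2 * (L + D)) ^ n with hWv
  have hW : Wv ≤ 2 * (2 * L) ^ n := by
    have h1 := add_pow_le_exp hLpos (s := D) (by positivity) n
    have h2 : Real.exp (n * (D / L)) ≤ 2 := by
      refine le_trans (Real.exp_le_exp.2 ?_) exp_half_le_two
      rw [← mul_div_assoc, div_le_iff₀ hLpos]
      linarith
    rw [hWv, mul_pow, mul_pow]
    calc (2 : ℝ) ^ n * (L + D) ^ n ≤ 2 ^ n * (L ^ n * 2) := by
          gcongr
          exact h1.trans (by gcongr)
      _ = _ := by ring
  have hWpos : 0 < Wv := by positivity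
  have hvL : v ≤ (2 * L) ^ n := by
    have h1 := ENNReal.toReal_mono (isBounded_cube n D).measure_lt_top.ne
      (measure_mono (μ := volume) hD)
    rw [volume_cube n hD0, ENNReal.toReal_ofReal (by positivity), hv₀] at h1
    refine h1.trans ?_
    gcongr
    nlinarith
  set ε : ℝ := 1 / (2 * n) with hε
  have hε0 : 0 < ε := by positivity
  have hε1 : ε ≤ 1 := by rw [hε, div_le_one (by positivity)]; linarith
  have hBv : v / (8 * n) ^ n ≤ (volume ((ε / 2) • C)).toReal := by
    rw [volume_smul_toReal _ (by positivity)]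
    refine le_trans (le_of_eq ?_) (mul_le_mul_of_nonneg_left hCv (by positivity))
    have : (8 * (n : ℝ)) ^ n = ((ε / 2) ^ n)⁻¹ * 2 ^ n := by
      rw [← inv_pow, ← mul_pow]; congr 1; rw [hε]; field_simp; ring
    rw [this]
    field_simp
  obtain ⟨P, hP, hPc, hnet⟩ := exists_net (B := (ε / 2) • C) (hCc.smul _).measurableSet
    (hCconv.smul _) ⟨0, ⟨by simpa using hx₀, by simpa using hx₀⟩, by simp⟩
    (by
      rintro _ ⟨x, hx, rfl⟩
      exact ⟨-x, ⟨hx.2, by simpa using hx.1⟩, by simp⟩)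
    (lt_of_lt_of_le (by positivity) hBv) hLpos hD0
    (smul_subset_cube (hCK.trans hD) (by positivity) (by linarith))
  have hAv : v / 2 ≤ (volume ((1 - ε) • K₀)).toReal := by
    rw [volume_smul_toReal _ (by linarith), hv₀]
    have h1 := sub_pow_ge_half (r := 1) (s := ε) one_pos n (by omega)
      (by rw [hε]; field_simp; rfl)
    rw [one_pow] at h1
    nlinarith
  set a := (volume ((1 - ε) • K₀)).toReal / Wv with ha
  have ha0 : v / (2 * Wv) ≤ a := by
    rw [ha, ← div_div]; gcongr
  have hapos : 0 < a := lt_of_lt_of_le (by positivity) ha0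
  set t : ℝ := n * Real.log (8 * n) with ht
  have ht0 : 0 ≤ t := mul_nonneg (by positivity) (Real.log_nonneg (by linarith))
  obtain ⟨X, hX, hXc⟩ := greedy_cover (A := (1 - ε) • K₀) (hK₀c.smul _).measurableSet
    ⟨0, h0, by simp⟩ hLpos hD0 (smul_subset_cube hD (by linarith) (by linarith)) ⌈t / a⌉₊ P hP
  have ha1 : 0 ≤ 1 - a := by
    have h1 := ENNReal.toReal_mono (isBounded_cube n D).measure_lt_top.ne
      (measure_mono (μ := volume) (smul_subset_cube (r := 1 - ε) hD (by linarith) (by linarith)))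
    rw [volume_cube n hD0, ENNReal.toReal_ofReal (by positivity)] at h1
    rw [sub_nonneg, ha, div_le_one hWpos]
    exact h1.trans (by rw [hWv]; gcongr; linarith)
  have h1 : (1 - a) ^ ⌈t / a⌉₊ ≤ 1 / (8 * n) ^ n := by
    calc (1 - a) ^ ⌈t / a⌉₊ ≤ Real.exp (-a) ^ ⌈t / a⌉₊ :=
          pow_le_pow_left₀ ha1 (by linarith [Real.add_one_le_exp (-a)]) _
      _ = Real.exp (-(⌈t / a⌉₊ * a)) := by rw [← Real.exp_nat_mul]; congr 1; ring
      _ ≤ Real.exp (-t) := by
          refine Real.exp_le_exp.2 (neg_le_neg ?_)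
          exact (div_le_iff₀ hapos).1 (Nat.le_ceil _)
      _ = 1 / (8 * n) ^ n := by
          rw [Real.exp_neg, ht, Real.exp_nat_mul, Real.exp_log (by positivity), one_div]
  have h2 : (P.card : ℝ) ≤ (8 * n) ^ n * (Wv / v) := by
    have h3 : (P.card : ℝ) * (v / (8 * n) ^ n) ≤ Wv :=
      (mul_le_mul_of_nonneg_left hBv (Nat.cast_nonneg _)).trans hPc
    rw [← mul_div_assoc, div_le_iff₀ (by positivity)] at h3
    rw [← mul_div_assoc, le_div_iff₀ hvpos]
    linarith
  have h3 : (X.card : ℝ) ≤ (2 * t + 1) * (Wv / v) + 1 := by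
    have h4 : (1 - a) ^ ⌈t / a⌉₊ * P.card ≤ 1 / (8 * n) ^ n * ((8 * n) ^ n * (Wv / v)) :=
      mul_le_mul h1 h2 (Nat.cast_nonneg _) (by positivity)
    have h5 : 1 / (8 * (n : ℝ)) ^ n * ((8 * n) ^ n * (Wv / v)) = Wv / v := by field_simp
    have h6 : (⌈t / a⌉₊ : ℝ) ≤ t / a + 1 := (Nat.ceil_lt_add_one (by positivity)).le
    have h7 : t / a ≤ t / (v / (2 * Wv)) := div_le_div_of_nonneg_left ht0 (by positivity) ha0
    have h8 : t / (v / (2 * Wv)) = 2 * t * (Wv / v) := by field_simp
    linarith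
  refine (thetaT_le_of_finite hLpos (X.image fun x => x - x₀) fun q hq => ?_).trans ?_
  · obtain ⟨p, hp, b, hb, hbq⟩ := hnet q hq
    obtain ⟨x, hx, k, hk, hkp⟩ := hXc p hp
    refine ⟨x - x₀, mem_image_of_mem _ hx, ?_⟩
    have h4 := hc₀ hk (hCK hb) (a := 1 - ε) (b := ε) (by linarith) hε0.le (by ring)
    simp only at hbq hkp
    have h5 : ε • b = q - p := by
      have : ε • b = (2 : ℝ) • ((ε / 2) • b) := by module
      rw [this, hbq]; module
    rw [hkp, h5] at h4
    have h6 : q - (x - x₀) = p - x + (q - p) + x₀ := by abel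
    rw [h6]; exact h4
  · rw [← ENNReal.ofReal_toReal hfin.ne, ← ENNReal.ofReal_mul hvpos.le]
    refine ENNReal.ofReal_le_ofReal ?_
    have h4 : (((X.image fun x => x - x₀).card : ℕ) : ℝ) ≤ X.card := by
      exact_mod_cast card_image_le
    have h5 : Real.log 2 ≤ Real.log n := Real.log_le_log (by norm_num) hn'
    have h6 : Real.log (8 * n) ≤ 4 * Real.log n := by
      rw [Real.log_mul (by norm_num) (by positivity), show (8 : ℝ) = 2 ^ 3 by norm_num, Real.log_pow]
      push_cast; linarith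
    have h7 : 1 ≤ n * Real.log n := by nlinarith [Real.log_two_gt_d9]
    have h8 : t ≤ 4 * (n * Real.log n) := by rw [ht]; nlinarith
    rw [← mul_div_assoc, div_le_iff₀ (by positivity)]
    calc v * ((X.image fun x => x - x₀).card : ℝ) ≤ v * ((2 * t + 1) * (Wv / v) + 1) := by
          gcongr; exact h4.trans h3
      _ = (2 * t + 1) * Wv + v := by field_simp
      _ ≤ (2 * t + 1) * (2 * (2 * L) ^ n) + (2 * L) ^ n := by gcongr
      _ = (4 * t + 3) * (2 * L) ^ n := by ring
      _ ≤ _ := by gcongr; linarith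

end Vale.Agent.P230
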